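import Vale.Agent.Lib.P126.Defs

open scoped Pointwise

namespace Vale.Agent.Lib.P126

variable {n : ℕ}

/-- Any finite cover bounds the covering number from above. -/
theorem covNum_le_card {A B : Set (EuclideanSpace ℝ (Fin n))}
    (s : Finset (EuclideanSpace ℝ (Fin n))) (h : A ⊆ ⋃ x ∈ s, (x +ᵥ B)) :
    covNum A B ≤ s.card :=
  Nat.sInf_le ⟨s, rfl, h⟩

/-- A bounded set is covered by finitely many translates of a set with nonempty interior. -/
theorem exists_finite_cover {A B : Set (EuclideanSpace ℝ (Fin n))}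
    (hA : Bornology.IsBounded A) (hB : (interior B).Nonempty) :
    ∃ s : Finset (EuclideanSpace ℝ (Fin n)), A ⊆ ⋃ x ∈ s, (x +ᵥ B) := by
  classical
  obtain ⟨b, hb⟩ := hB
  obtain ⟨ε, hε, hball⟩ := Metric.isOpen_iff.1 isOpen_interior b hb
  obtain ⟨t, -, htfin, hcov⟩ := hA.isCompact_closure.finite_cover_balls hε
  refine ⟨htfin.toFinset.image (fun x => x - b), ?_⟩
  intro y hy
  have hy' := hcov (subset_closure hy)
  simp only [Set.mem_iUnion, exists_prop] at hy'
  obtain ⟨x, hxt, hyx⟩ := hy'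
  simp only [Set.mem_iUnion, exists_prop, Finset.mem_image, Set.Finite.mem_toFinset]
  refine ⟨x - b, ⟨x, hxt, rfl⟩, ?_⟩
  rw [Set.mem_vadd_set]
  refine ⟨y - x + b, ?_, ?_⟩
  · apply interior_subset
    apply hball
    rw [Metric.mem_ball, dist_eq_norm] at hyx ⊢
    simpa using hyx
  · simp only [vadd_eq_add]
    abel

/-- Lower bounds for covering numbers: if some finite cover exists and every finite cover has
at least `k` members then `k ≤ N(A,B)`. -/
theorem le_covNum {A B : Set (EuclideanSpace ℝ (Fin n))} {k : ℕ}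
    (hex : ∃ s : Finset (EuclideanSpace ℝ (Fin n)), A ⊆ ⋃ x ∈ s, (x +ᵥ B))
    (h : ∀ s : Finset (EuclideanSpace ℝ (Fin n)), A ⊆ ⋃ x ∈ s, (x +ᵥ B) → k ≤ s.card) :
    k ≤ covNum A B := by
  have hne : {k : ℕ | ∃ s : Finset (EuclideanSpace ℝ (Fin n)),
      s.card = k ∧ A ⊆ ⋃ x ∈ s, (x +ᵥ B)}.Nonempty := by
    obtain ⟨s, hs⟩ := hex
    exact ⟨s.card, s, rfl, hs⟩
  obtain ⟨s, hs, hcov⟩ := Nat.sInf_mem hne
  have := h s hcov
  unfold covNum
  omega

/-- The covering number is attained. -/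
theorem exists_cover_card_eq {A B : Set (EuclideanSpace ℝ (Fin n))}
    (hex : ∃ s : Finset (EuclideanSpace ℝ (Fin n)), A ⊆ ⋃ x ∈ s, (x +ᵥ B)) :
    ∃ s : Finset (EuclideanSpace ℝ (Fin n)), s.card = covNum A B ∧ A ⊆ ⋃ x ∈ s, (x +ᵥ B) := by
  have hne : {k : ℕ | ∃ s : Finset (EuclideanSpace ℝ (Fin n)),
      s.card = k ∧ A ⊆ ⋃ x ∈ s, (x +ᵥ B)}.Nonempty := by
    obtain ⟨s, hs⟩ := hex
    exact ⟨s.card, s, rfl, hs⟩
  exact Nat.sInf_mem hne

/-- The `ℓ₁`-ball of radius `r`. -/
def l1Ball (n : ℕ) (r : ℝ) : Set (EuclideanSpace ℝ (Fin n)) := {y | ∑ i, |y i| ≤ r}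

theorem continuous_l1 : Continuous (fun y : EuclideanSpace ℝ (Fin n) => ∑ i, |y i|) := by
  fun_prop

theorem abs_apply_le_l1 (y : EuclideanSpace ℝ (Fin n)) (i : Fin n) : |y i| ≤ ∑ j, |y j| :=
  Finset.single_le_sum (f := fun j => |y j|) (fun _ _ => abs_nonneg _) (Finset.mem_univ i)

theorem norm_le_l1 (y : EuclideanSpace ℝ (Fin n)) : ‖y‖ ≤ ∑ i, |y i| := by
  have h0 : 0 ≤ ∑ i, |y i| := Finset.sum_nonneg (fun i _ => abs_nonneg _)
  rw [EuclideanSpace.norm_eq]
  apply Real.sqrt_le_iff.2 ⟨h0, ?_⟩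
  calc ∑ i, ‖y i‖ ^ 2 = ∑ i, |y i| * |y i| := by
        apply Finset.sum_congr rfl; intro i _; rw [Real.norm_eq_abs]; ring
    _ ≤ ∑ i, (∑ j, |y j|) * |y i| := by
        apply Finset.sum_le_sum; intro i _
        exact mul_le_mul_of_nonneg_right (abs_apply_le_l1 y i) (abs_nonneg _)
    _ = (∑ i, |y i|) ^ 2 := by rw [← Finset.mul_sum]; ring

theorem l1Ball_isSymmConvexBody (n : ℕ) {r : ℝ} (hr : 0 < r) : IsSymmConvexBody (l1Ball n r) where
  isCompact := by
    apply Metric.isCompact_of_isClosed_isBounded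
    · exact isClosed_le continuous_l1 continuous_const
    · apply isBounded_iff_forall_norm_le.2 ⟨r, ?_⟩
      intro y hy
      exact (norm_le_l1 y).trans hy
  convex := by
    intro y hy z hz α β hα hβ hαβ
    simp only [l1Ball, Set.mem_ofPred_eq] at hy hz ⊢
    calc ∑ i, |(α • y + β • z) i| ≤ ∑ i, (α * |y i| + β * |z i|) := by
          apply Finset.sum_le_sum; intro i _
          simp only [PiLp.add_apply, PiLp.smul_apply, smul_eq_mul]
          calc |α * y i + β * z i| ≤ |α * y i| + |β * z i| := abs_add_le _ _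
            _ = α * |y i| + β * |z i| := by
              rw [abs_mul, abs_mul, abs_of_nonneg hα, abs_of_nonneg hβ]
      _ = α * ∑ i, |y i| + β * ∑ i, |z i| := by
          rw [Finset.sum_add_distrib, Finset.mul_sum, Finset.mul_sum]
      _ ≤ α * r + β * r := by gcongr
      _ = r := by rw [← add_mul, hαβ, one_mul]
  interior_nonempty := by
    refine ⟨0, ?_⟩
    have hopen : IsOpen {y : EuclideanSpace ℝ (Fin n) | ∑ i, |y i| < r} :=
      isOpen_lt continuous_l1 continuous_const
    have hsub : {y : EuclideanSpace ℝ (Fin n) | ∑ i, |y i| < r} ⊆ l1Ball n r := by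
      intro y hy
      have hy' : ∑ i, |y i| < r := hy
      exact hy'.le
    apply interior_maximal hsub hopen
    simpa using hr
  neg_mem := by
    intro y hy
    simpa [l1Ball] using hy

/-- A symmetric convex body contains a ball around the origin. -/
theorem IsSymmConvexBody.exists_ball_subset {K : Set (EuclideanSpace ℝ (Fin n))}
    (hK : IsSymmConvexBody K) : ∃ ε : ℝ, 0 < ε ∧ Metric.ball 0 ε ⊆ K := by
  obtain ⟨c, hc⟩ := hK.interior_nonempty
  obtain ⟨ε, hε, hball⟩ := Metric.isOpen_iff.1 isOpen_interior c hc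
  refine ⟨ε, hε, ?_⟩
  intro v hv
  have hv' : ‖v‖ < ε := by simpa using hv
  have h1 : c + v ∈ K := by
    apply interior_subset
    apply hball
    simpa [dist_eq_norm] using hv'
  have h2 : -(c - v) ∈ K := by
    apply hK.neg_mem
    apply interior_subset
    apply hball
    simpa [dist_eq_norm] using hv'
  have h3 := hK.convex h1 h2 (by norm_num : (0:ℝ) ≤ 1/2) (by norm_num : (0:ℝ) ≤ 1/2)
    (by norm_num)
  have h4 : (1/2 : ℝ) • (c + v) + (1/2 : ℝ) • (-(c - v)) = v := by
    rw [← smul_add]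
    have : c + v + -(c - v) = (2:ℝ) • v := by rw [two_smul]; abel
    rw [this, smul_smul]; norm_num
  rwa [h4] at h3

/-- A symmetric convex body is bounded in norm. -/
theorem IsSymmConvexBody.exists_norm_le {K : Set (EuclideanSpace ℝ (Fin n))}
    (hK : IsSymmConvexBody K) : ∃ C : ℝ, 0 < C ∧ ∀ x ∈ K, ‖x‖ ≤ C := by
  obtain ⟨C, hC⟩ := isBounded_iff_forall_norm_le.1 hK.isCompact.isBounded
  exact ⟨max C 1, by positivity, fun x hx => (hC x hx).trans (le_max_left _ _)⟩

/-- The polar of a symmetric convex body is bounded. -/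
theorem IsSymmConvexBody.polarBody_isBounded {K : Set (EuclideanSpace ℝ (Fin n))}
    (hK : IsSymmConvexBody K) : Bornology.IsBounded (polarBody K) := by
  obtain ⟨ε, hε, hball⟩ := hK.exists_ball_subset
  apply isBounded_iff_forall_norm_le.2 ⟨2 / ε, ?_⟩
  intro y hy
  by_cases hy0 : y = 0
  · subst hy0; simp; positivity
  have hn : 0 < ‖y‖ := norm_pos_iff.2 hy0
  have hx : ((ε / 2) / ‖y‖) • y ∈ K := by
    apply hball
    rw [mem_ball_zero_iff, norm_smul, Real.norm_eq_abs, abs_of_pos (by positivity)]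
    rw [div_mul_cancel₀ _ hn.ne']
    linarith
  have h1 := hy _ hx
  rw [real_inner_smul_left, real_inner_self_eq_norm_sq] at h1
  have h2 : ε / 2 / ‖y‖ * ‖y‖ ^ 2 = ε / 2 * ‖y‖ := by field_simp
  rw [h2] at h1
  rw [le_div_iff₀ hε]
  linarith

/-- A positive multiple of the polar of a symmetric convex body has nonempty interior. -/
theorem IsSymmConvexBody.interior_smul_polarBody_nonempty {K : Set (EuclideanSpace ℝ (Fin n))}
    (hK : IsSymmConvexBody K) {a : ℝ} (ha : 0 < a) : (interior (a • polarBody K)).Nonempty := by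
  obtain ⟨C, hC, hKC⟩ := hK.exists_norm_le
  refine ⟨0, ?_⟩
  have hsub : Metric.ball (0 : EuclideanSpace ℝ (Fin n)) (a / C) ⊆ a • polarBody K := by
    intro p hp
    have hp' : ‖p‖ < a / C := by simpa using hp
    rw [Set.mem_smul_set]
    refine ⟨a⁻¹ • p, ?_, ?_⟩
    · intro x hx
      rw [real_inner_smul_right]
      have h1 : inner ℝ x p ≤ ‖x‖ * ‖p‖ := real_inner_le_norm x p
      have h2 : ‖x‖ * ‖p‖ ≤ C * (a / C) :=
        mul_le_mul (hKC x hx) hp'.le (norm_nonneg _) hC.le
      have h3 : C * (a / C) = a := by field_simp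
      have h4 : inner ℝ x p ≤ a := by linarith
      calc a⁻¹ * inner ℝ x p ≤ a⁻¹ * a := by gcongr
        _ = 1 := inv_mul_cancel₀ ha.ne'
    · rw [smul_smul, mul_inv_cancel₀ ha.ne', one_smul]
  apply interior_maximal hsub Metric.isOpen_ball
  simp only [Metric.mem_ball, dist_self]
  positivity

/-- Polars of bodies admit finite covers by multiples of polars of bodies. -/
theorem exists_finite_cover_polar {K L : Set (EuclideanSpace ℝ (Fin n))}
    (hK : IsSymmConvexBody K) (hL : IsSymmConvexBody L) {a : ℝ} (ha : 0 < a) :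
    ∃ s : Finset (EuclideanSpace ℝ (Fin n)),
      polarBody L ⊆ ⋃ x ∈ s, (x +ᵥ (a • polarBody K)) :=
  exists_finite_cover hL.polarBody_isBounded (hK.interior_smul_polarBody_nonempty ha)

end Vale.Agent.Lib.P126
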