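import Vale.Agent.Lib.P126.Basic

open scoped Pointwise

namespace Vale.Agent.Lib.P126

variable {n : ℕ}

theorem isClosed_polarBody (K : Set (EuclideanSpace ℝ (Fin n))) : IsClosed (polarBody K) := by
  have : polarBody K = ⋂ x ∈ K, {y : EuclideanSpace ℝ (Fin n) | inner ℝ x y ≤ 1} := by
    ext y
    simp only [polarBody, Set.mem_ofPred_eq, Set.mem_iInter]
  rw [this]
  apply isClosed_biInter
  intro x _
  exact isClosed_le (by fun_prop) continuous_const

/-- The polar of a symmetric convex body is a symmetric convex body. -/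
theorem IsSymmConvexBody.polarBody {K : Set (EuclideanSpace ℝ (Fin n))}
    (hK : IsSymmConvexBody K) : IsSymmConvexBody (polarBody K) where
  isCompact := Metric.isCompact_of_isClosed_isBounded (isClosed_polarBody K) hK.polarBody_isBounded
  convex := by
    intro y hy z hz α β hα hβ hαβ x hx
    rw [inner_add_right, real_inner_smul_right, real_inner_smul_right]
    have h1 := hy x hx
    have h2 := hz x hx
    calc α * inner ℝ x y + β * inner ℝ x z ≤ α * 1 + β * 1 := by gcongr
      _ = 1 := by linarith
  interior_nonempty := by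
    have := hK.interior_smul_polarBody_nonempty (a := 1) one_pos
    simpa using this
  neg_mem := by
    intro y hy x hx
    have := hy (-x) (hK.neg_mem x hx)
    rwa [inner_neg_left, ← inner_neg_right] at this

/-- Positive dilates of symmetric convex bodies are symmetric convex bodies. -/
theorem IsSymmConvexBody.smul {K : Set (EuclideanSpace ℝ (Fin n))} (hK : IsSymmConvexBody K)
    {t : ℝ} (ht : 0 < t) : IsSymmConvexBody (t • K) where
  isCompact := hK.isCompact.smul t
  convex := hK.convex.smul t
  interior_nonempty := by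
    rw [interior_smul₀ ht.ne']
    exact hK.interior_nonempty.smul_set
  neg_mem := by
    rintro _ ⟨x, hx, rfl⟩
    exact ⟨-x, hK.neg_mem x hx, by simp⟩

/-- The bipolar theorem for symmetric convex bodies. -/
theorem IsSymmConvexBody.polarBody_polarBody {K : Set (EuclideanSpace ℝ (Fin n))}
    (hK : IsSymmConvexBody K) : Vale.Agent.Lib.P126.polarBody (Vale.Agent.Lib.P126.polarBody K) = K := by
  apply Set.Subset.antisymm
  · intro x₀ hx₀
    by_contra hnot
    obtain ⟨f, u, hfu, hux⟩ :=
      geometric_hahn_banach_closed_point hK.convex hK.isCompact.isClosed hnot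
    have h0 : (0 : EuclideanSpace ℝ (Fin n)) ∈ K := by
      obtain ⟨ε, hε, hball⟩ := hK.exists_ball_subset
      exact hball (Metric.mem_ball_self hε)
    have hu : 0 < u := by simpa using hfu 0 h0
    set y : EuclideanSpace ℝ (Fin n) :=
      u⁻¹ • (InnerProductSpace.toDual ℝ (EuclideanSpace ℝ (Fin n))).symm f with hy
    have hyin : ∀ x, inner ℝ y x = u⁻¹ * f x := by
      intro x
      rw [hy, real_inner_smul_left, InnerProductSpace.toDual_symm_apply]
    have hyK : y ∈ Vale.Agent.Lib.P126.polarBody K := by
      intro x hx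
      rw [real_inner_comm, hyin]
      have := hfu x hx
      rw [inv_mul_le_iff₀ hu]
      linarith
    have h1 := hx₀ y hyK
    rw [hyin, inv_mul_le_iff₀ hu] at h1
    linarith
  · intro x hx y hy
    rw [real_inner_comm]
    exact hy x hx

theorem polarBody_smul (K : Set (EuclideanSpace ℝ (Fin n))) {t : ℝ} (ht : 0 < t) :
    polarBody (t • K) = t⁻¹ • polarBody K := by
  ext y
  rw [Set.mem_smul_set]
  constructor
  · intro hy
    refine ⟨t • y, ?_, ?_⟩
    · intro x hx
      have := hy (t • x) (Set.smul_mem_smul_set hx)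
      rwa [real_inner_smul_left, ← real_inner_smul_right] at this
    · rw [smul_smul, inv_mul_cancel₀ ht.ne', one_smul]
  · rintro ⟨z, hz, rfl⟩
    rintro _ ⟨x, hx, rfl⟩
    simp only
    rw [real_inner_smul_left, real_inner_smul_right, ← mul_assoc, mul_inv_cancel₀ ht.ne', one_mul]
    exact hz x hx

/-- Covering numbers are invariant under a common dilation. -/
theorem covNum_smul_smul (A B : Set (EuclideanSpace ℝ (Fin n))) {t : ℝ} (ht : 0 < t) :
    covNum (t • A) (t • B) = covNum A B := by
  classical
  have key : ∀ (A B : Set (EuclideanSpace ℝ (Fin n))) (t : ℝ), 0 < t → ∀ k : ℕ,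
      (∃ s : Finset (EuclideanSpace ℝ (Fin n)), s.card = k ∧ A ⊆ ⋃ x ∈ s, (x +ᵥ B)) →
      (∃ s : Finset (EuclideanSpace ℝ (Fin n)), s.card = k ∧
        t • A ⊆ ⋃ x ∈ s, (x +ᵥ (t • B))) := by
    intro A B t ht k ⟨s, hs, hcov⟩
    refine ⟨s.image (fun x => t • x), ?_, ?_⟩
    · rw [Finset.card_image_of_injective _ (smul_right_injective _ ht.ne'), hs]
    · rintro _ ⟨a, ha, rfl⟩
      have := hcov ha
      simp only [Set.mem_iUnion, exists_prop] at this ⊢
      obtain ⟨x, hx, hax⟩ := this
      obtain ⟨b, hb, rfl⟩ := Set.mem_vadd_set.1 hax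
      refine ⟨t • x, Finset.mem_image.2 ⟨x, hx, rfl⟩, ?_⟩
      rw [Set.mem_vadd_set]
      exact ⟨t • b, Set.smul_mem_smul_set hb, by simp [smul_add]⟩
  unfold covNum
  congr 1
  ext k
  constructor
  · intro h
    have := key (t • A) (t • B) t⁻¹ (inv_pos.2 ht) k h
    simpa [smul_smul, inv_mul_cancel₀ ht.ne'] using this
  · exact key A B t ht k

end Vale.Agent.Lib.P126
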