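import Mathlib

/-!
# P126: definitions for the duality conjecture for metric entropy

All sets live in `EuclideanSpace ℝ (Fin n)`, i.e. `ℝ^n` with the standard inner product.
-/

open scoped Pointwise

namespace Vale.Agent.Lib.P126

/-- The covering number `N(A,B)`: the least number of translates `x + B` (with arbitrary
centres `x`) whose union contains `A`.  (It is the infimum of a set of natural numbers; that set
is nonempty whenever `A` is bounded and `B` has nonempty interior.) -/
noncomputable def covNum {n : ℕ} (A B : Set (EuclideanSpace ℝ (Fin n))) : ℕ :=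
  sInf {k : ℕ | ∃ s : Finset (EuclideanSpace ℝ (Fin n)), s.card = k ∧ A ⊆ ⋃ x ∈ s, (x +ᵥ B)}

/-- The polar body `K° = {y : ⟨x,y⟩ ≤ 1 for all x ∈ K}`. -/
def polarBody {n : ℕ} (K : Set (EuclideanSpace ℝ (Fin n))) : Set (EuclideanSpace ℝ (Fin n)) :=
  {y | ∀ x ∈ K, inner ℝ x y ≤ 1}

/-- An origin-symmetric convex body: compact, convex, nonempty interior, `K = -K`. -/
structure IsSymmConvexBody {n : ℕ} (K : Set (EuclideanSpace ℝ (Fin n))) : Prop where
  isCompact : IsCompact K
  convex : Convex ℝ K
  interior_nonempty : (interior K).Nonempty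
  neg_mem : ∀ x ∈ K, -x ∈ K

/-- The two inequalities of the duality conjecture for metric entropy, with constants `a`, `b`,
for all dimensions and all pairs of origin-symmetric convex bodies. -/
def EntropyDuality (a b : ℝ) : Prop :=
  ∀ n : ℕ, 1 ≤ n → ∀ K L : Set (EuclideanSpace ℝ (Fin n)),
    IsSymmConvexBody K → IsSymmConvexBody L →
      (1 / b) * Real.log (covNum (polarBody L) (a • polarBody K)) ≤ Real.log (covNum K L) ∧
      Real.log (covNum K L) ≤ b * Real.log (covNum (polarBody L) (a⁻¹ • polarBody K))

end Vale.Agent.Lib.P126
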