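import Vale.Agent.Lib.P126.Quasi
import Vale.Agent.Lib.P126.Bipolar

open scoped Pointwise

namespace Vale.Agent.Lib.P126

/-- Numerical conversion of the explicit quasi-polynomial bound into logarithmic form. -/
theorem log_le_of_le_quasi (m N : ℕ)
    (h : N ≤ 2 * (m * (2 * ⌈(m : ℝ) / 8⌉₊ + 1) + 1) ^
          ((Nat.log 2 (m * (2 * ⌈(m : ℝ) / 8⌉₊ + 1) + 1) + 1) * Nat.log 2 m)) :
    Real.log N ≤ 13 * (1 + Real.log m) ^ 3 := by
  have hl1 := Real.log_two_gt_d9
  have hl2 := Real.log_two_lt_d9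
  rcases Nat.eq_zero_or_pos N with hN | hN
  · subst hN
    simp only [Nat.cast_zero, Real.log_zero]
    have : 0 ≤ Real.log (m : ℝ) := Real.log_natCast_nonneg m
    positivity
  rcases Nat.eq_zero_or_pos m with hm | hm
  · subst hm
    simp at h
    have h2 : (N : ℝ) ≤ 2 := by exact_mod_cast h
    have h3 : Real.log N ≤ Real.log 2 := Real.log_le_log (by exact_mod_cast hN) h2
    simp only [Nat.cast_zero, Real.log_zero]
    linarith
  set G : ℕ := ⌈(m : ℝ) / 8⌉₊ with hG
  set q : ℕ := m * (2 * G + 1) + 1 with hq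
  set lam : ℕ := Nat.log 2 q with hlam
  set d : ℕ := Nat.log 2 m with hd
  set s : ℝ := 1 + Real.log m with hs
  have hm1 : (1 : ℝ) ≤ m := by exact_mod_cast hm
  have hlogm : 0 ≤ Real.log (m : ℝ) := Real.log_natCast_nonneg m
  have hs1 : 1 ≤ s := by linarith
  have hGm : G ≤ m := by
    rw [hG, Nat.ceil_le]
    linarith
  have hq4 : q ≤ 4 * m ^ 2 := by
    rw [hq]
    nlinarith
  have hq1 : 1 ≤ q := by rw [hq]; omega
  have hq1' : (1 : ℝ) ≤ q := by exact_mod_cast hq1
  have hlogq0 : 0 ≤ Real.log (q : ℝ) := Real.log_natCast_nonneg q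
  have hlogq : Real.log q ≤ 2 * s := by
    have h1 : (q : ℝ) ≤ 4 * (m : ℝ) ^ 2 := by exact_mod_cast hq4
    have h2 : Real.log q ≤ Real.log (4 * (m : ℝ) ^ 2) := Real.log_le_log (by linarith) h1
    have h3 : Real.log (4 * (m : ℝ) ^ 2) = 2 * Real.log 2 + 2 * Real.log m := by
      rw [Real.log_mul (by norm_num) (by positivity), Real.log_pow]
      have : (4 : ℝ) = 2 ^ 2 := by norm_num
      rw [this, Real.log_pow]
      push_cast
      ring
    rw [h3] at h2
    linarith
  have hlam' : (lam : ℝ) * Real.log 2 ≤ Real.log q := by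
    have h1 : 2 ^ lam ≤ q := Nat.pow_log_le_self 2 (by omega)
    have h2 : ((2 : ℝ) ^ lam) ≤ q := by exact_mod_cast h1
    have h3 := Real.log_le_log (by positivity) h2
    rwa [Real.log_pow] at h3
  have hd' : (d : ℝ) * Real.log 2 ≤ Real.log m := by
    have h1 : 2 ^ d ≤ m := Nat.pow_log_le_self 2 (by omega)
    have h2 : ((2 : ℝ) ^ d) ≤ m := by exact_mod_cast h1
    have h3 := Real.log_le_log (by positivity) h2
    rwa [Real.log_pow] at h3
  have hlam0 : (0 : ℝ) ≤ lam := Nat.cast_nonneg _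
  have hd0 : (0 : ℝ) ≤ d := Nat.cast_nonneg _
  have hlam2 : (lam : ℝ) + 1 ≤ 3.9 * s := by nlinarith
  have hd2 : (d : ℝ) ≤ 1.45 * s := by nlinarith
  have hNle : (N : ℝ) ≤ 2 * (q : ℝ) ^ ((lam + 1) * d) := by exact_mod_cast h
  have h5 : Real.log N ≤ Real.log 2 + (((lam : ℝ) + 1) * d) * Real.log q := by
    have h6 := Real.log_le_log (by exact_mod_cast hN) hNle
    rw [Real.log_mul (by norm_num) (by positivity), Real.log_pow] at h6
    push_cast at h6
    exact h6
  have h7 : (((lam : ℝ) + 1) * d) * Real.log q ≤ ((3.9 * s) * (1.45 * s)) * (2 * s) := by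
    apply mul_le_mul _ hlogq hlogq0 (by positivity)
    exact mul_le_mul hlam2 hd2 hd0 (by positivity)
  have hs3 : 1 ≤ s ^ 3 := one_le_pow₀ hs1
  nlinarith

variable {n : ℕ}

/-- Both inequalities of the duality conjecture at the absolute scale `20`, with the factor `b`
replaced by `13 (1 + log N)^2`. -/
theorem log_covNum_two_sided {K L : Set (EuclideanSpace ℝ (Fin n))} (hK : IsSymmConvexBody K)
    (hL : IsSymmConvexBody L) :
    Real.log (covNum (polarBody L) ((20 : ℝ) • polarBody K))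
        ≤ 13 * (1 + Real.log (covNum K L)) ^ 3 ∧
      Real.log (covNum K L)
        ≤ 13 * (1 + Real.log (covNum (polarBody L) ((20 : ℝ)⁻¹ • polarBody K))) ^ 3 := by
  refine ⟨log_le_of_le_quasi _ _ (covNum_polar_le_quasi hK hL), ?_⟩
  have h20 : (0 : ℝ) < 20 := by norm_num
  have hK1 : IsSymmConvexBody (polarBody L) := hL.polarBody
  have hL1 : IsSymmConvexBody ((20 : ℝ)⁻¹ • polarBody K) := hK.polarBody.smul (inv_pos.2 h20)
  have key := covNum_polar_le_quasi hK1 hL1
  rw [polarBody_smul _ (inv_pos.2 h20), inv_inv, hK.polarBody_polarBody, hL.polarBody_polarBody,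
    covNum_smul_smul _ _ h20] at key
  exact log_le_of_le_quasi _ _ key

end Vale.Agent.Lib.P126
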