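import Mathlib

/-!
# A packing bound in terms of strong shattering (in the spirit of Alon, Ben-David, Cesa-Bianchi and Haussler)
-/

open Finset

namespace Vale.Agent.Lib.P126

variable {ι : Type*} [DecidableEq ι]

/-- `G` (a finite set of pairs (point, level)) is strongly shattered by the family `F`. -/
def StronglyShatters (F : Finset (ι → ℤ)) (G : Finset (ι × ℤ)) : Prop :=
  ∀ E ⊆ G, ∃ f ∈ F, (∀ g ∈ E, g.2 + 1 ≤ f g.1) ∧ (∀ g ∈ G \ E, f g.1 ≤ g.2 - 1)

/-- Distinct members of `F` differ by at least `2` at some point of `X`. -/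
def SepOn (X : Finset ι) (F : Finset (ι → ℤ)) : Prop :=
  ∀ f ∈ F, ∀ g ∈ F, f ≠ g → ∃ x ∈ X, 2 ≤ |f x - g x|

open Classical in
/-- The strongly shattered sets with points in `X` and levels in `[0,b)`. -/
noncomputable def shatteredSets (X : Finset ι) (b : ℕ) (F : Finset (ι → ℤ)) :
    Finset (Finset (ι × ℤ)) :=
  ((X ×ˢ Finset.Ico (0 : ℤ) b).powerset).filter (fun G => StronglyShatters F G)

theorem mem_shatteredSets {X : Finset ι} {b : ℕ} {F : Finset (ι → ℤ)} {G : Finset (ι × ℤ)} :
    G ∈ shatteredSets X b F ↔ G ⊆ X ×ˢ Finset.Ico (0 : ℤ) b ∧ StronglyShatters F G := by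
  classical
  simp [shatteredSets]

theorem empty_mem_shatteredSets {X : Finset ι} {b : ℕ} {F : Finset (ι → ℤ)} (hF : F.Nonempty) :
    ∅ ∈ shatteredSets X b F := by
  rw [mem_shatteredSets]
  refine ⟨by simp, ?_⟩
  intro E hE
  obtain ⟨f, hf⟩ := hF
  have : E = ∅ := by simpa using hE
  subst this
  exact ⟨f, hf, by simp, by simp⟩

theorem shatteredSets_mono {X X' : Finset ι} {b : ℕ} {F F' : Finset (ι → ℤ)} (hX : X' ⊆ X)
    (hF : F' ⊆ F) : shatteredSets X' b F' ⊆ shatteredSets X b F := by
  intro G hG
  rw [mem_shatteredSets] at hG ⊢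
  refine ⟨hG.1.trans (Finset.product_subset_product hX (Finset.Subset.refl _)), ?_⟩
  intro E hE
  obtain ⟨f, hf, h1, h2⟩ := hG.2 E hE
  exact ⟨f, hF hf, h1, h2⟩

theorem singleton_mem_shatteredSets {X : Finset ι} {b : ℕ} {F : Finset (ι → ℤ)}
    (hval : ∀ f ∈ F, ∀ x ∈ X, 0 ≤ f x ∧ f x < b) {f g : ι → ℤ} (hf : f ∈ F) (hg : g ∈ F)
    {x : ι} (hx : x ∈ X) (h : f x + 2 ≤ g x) : {(x, f x + 1)} ∈ shatteredSets X b F := by
  rw [mem_shatteredSets]
  constructor
  · intro p hp
    rw [Finset.mem_singleton] at hp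
    subst hp
    rw [Finset.mem_product, Finset.mem_Ico]
    have := hval f hf x hx
    have := hval g hg x hx
    exact ⟨hx, by simp only; omega, by simp only; omega⟩
  · intro E hE
    rcases Finset.subset_singleton_iff.1 hE with h0 | h0
    · subst h0
      refine ⟨f, hf, by simp, ?_⟩
      intro p hp
      simp only [Finset.sdiff_empty, Finset.mem_singleton] at hp
      subst hp
      simp
    · subst h0
      refine ⟨g, hg, ?_, by simp⟩
      intro p hp
      rw [Finset.mem_singleton] at hp
      subst hp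
      simp only
      omega

/-- Pigeonhole step: a large separated family has two large fibres over one point whose values
differ by at least two. -/
theorem exists_big_pair {X : Finset ι} {b N : ℕ} {F : Finset (ι → ℤ)}
    (hval : ∀ f ∈ F, ∀ x ∈ X, 0 ≤ f x ∧ f x < b) (hsep : SepOn X F)
    (hcard : X.card * b * (N - 1) + 2 ≤ F.card) :
    ∃ x₀ ∈ X, ∃ i j : ℤ, i + 2 ≤ j ∧ N ≤ (F.filter (fun f => f x₀ = i)).card ∧
      N ≤ (F.filter (fun f => f x₀ = j)).card := by
  classical
  by_contra H
  have H' : ∀ x₀ ∈ X, ∀ i j : ℤ, i + 2 ≤ j → N ≤ (F.filter (fun f => f x₀ = i)).card →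
      N ≤ (F.filter (fun f => f x₀ = j)).card → False := by
    intro x₀ hx₀ i j hij h1 h2
    exact H ⟨x₀, hx₀, i, j, hij, h1, h2⟩
  set P : (ι → ℤ) → Prop := fun f => ∀ x ∈ X, N ≤ (F.filter (fun g => g x = f x)).card with hP
  have hgood : (F.filter P).card ≤ 1 := by
    rw [Finset.card_le_one]
    intro f hf g hg
    by_contra hne
    rw [Finset.mem_filter] at hf hg
    obtain ⟨x, hx, hxfg⟩ := hsep f hf.1 g hg.1 hne
    rcases le_abs.1 hxfg with h | h
    · exact H' x hx (g x) (f x) (by omega) (hg.2 x hx) (hf.2 x hx)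
    · exact H' x hx (f x) (g x) (by omega) (hf.2 x hx) (hg.2 x hx)
  have hbad : (F.filter (fun f => ¬ P f)).card ≤ X.card * b * (N - 1) := by
    have hsub : F.filter (fun f => ¬ P f) ⊆ (X ×ˢ Finset.Ico (0 : ℤ) b).biUnion
        (fun p => if N ≤ (F.filter (fun g => g p.1 = p.2)).card then ∅
          else F.filter (fun g => g p.1 = p.2)) := by
      intro f hf
      rw [Finset.mem_filter] at hf
      obtain ⟨hfF, hfP⟩ := hf
      simp only [hP, not_forall] at hfP
      obtain ⟨x, hx, hxN⟩ := hfP
      rw [Finset.mem_biUnion]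
      refine ⟨(x, f x), ?_, ?_⟩
      · rw [Finset.mem_product, Finset.mem_Ico]
        exact ⟨hx, hval f hfF x hx⟩
      · simp only [if_neg hxN]
        rw [Finset.mem_filter]
        exact ⟨hfF, rfl⟩
    calc (F.filter (fun f => ¬ P f)).card
        ≤ ((X ×ˢ Finset.Ico (0 : ℤ) b).biUnion
        (fun p => if N ≤ (F.filter (fun g => g p.1 = p.2)).card then ∅
          else F.filter (fun g => g p.1 = p.2))).card := Finset.card_le_card hsub
      _ ≤ ∑ p ∈ X ×ˢ Finset.Ico (0 : ℤ) b,
          (if N ≤ (F.filter (fun g => g p.1 = p.2)).card then (∅ : Finset (ι → ℤ))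
          else F.filter (fun g => g p.1 = p.2)).card := Finset.card_biUnion_le
      _ ≤ ∑ _p ∈ X ×ˢ Finset.Ico (0 : ℤ) b, (N - 1) := by
          apply Finset.sum_le_sum
          intro p _
          split_ifs with h
          · simp
          · omega
      _ = X.card * b * (N - 1) := by
          rw [Finset.sum_const, Finset.card_product, Int.card_Ico]
          simp
  have htot := Finset.card_filter_add_card_filter_not (s := F) P
  omega

/-- Gluing step: a set shattered by both fibres can be extended by the point `x₀`. -/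
theorem insert_mem_shatteredSets {X : Finset ι} {b : ℕ} {F : Finset (ι → ℤ)} {x₀ : ι}
    (hx₀ : x₀ ∈ X) {i j : ℤ} (hi : 0 ≤ i) (hj : j < b) (hij : i + 2 ≤ j) {G : Finset (ι × ℤ)}
    (h1 : G ∈ shatteredSets (X.erase x₀) b (F.filter (fun f => f x₀ = i)))
    (h2 : G ∈ shatteredSets (X.erase x₀) b (F.filter (fun f => f x₀ = j))) :
    insert (x₀, i + 1) G ∈ shatteredSets X b F := by
  rw [mem_shatteredSets] at h1 h2 ⊢
  have hnot : (x₀, i + 1) ∉ G := by
    intro hmem
    have := h1.1 hmem
    rw [Finset.mem_product] at this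
    exact (Finset.mem_erase.1 this.1).1 rfl
  constructor
  · intro p hp
    rw [Finset.mem_insert] at hp
    rcases hp with rfl | hp
    · rw [Finset.mem_product, Finset.mem_Ico]
      exact ⟨hx₀, by simp only; omega, by simp only; omega⟩
    · exact Finset.product_subset_product (Finset.erase_subset _ _) (Finset.Subset.refl _)
        (h1.1 hp)
  · intro E hE
    by_cases hmem : (x₀, i + 1) ∈ E
    · -- use the upper fibre
      have hE' : E.erase (x₀, i + 1) ⊆ G := by
        intro p hp
        rw [Finset.mem_erase] at hp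
        rcases Finset.mem_insert.1 (hE hp.2) with h | h
        · exact absurd h hp.1
        · exact h
      obtain ⟨f, hf, hf1, hf2⟩ := h2.2 _ hE'
      rw [Finset.mem_filter] at hf
      refine ⟨f, hf.1, ?_, ?_⟩
      · intro p hp
        by_cases hpe : p = (x₀, i + 1)
        · subst hpe
          simp only [hf.2]
          omega
        · exact hf1 p (Finset.mem_erase.2 ⟨hpe, hp⟩)
      · intro p hp
        rw [Finset.mem_sdiff, Finset.mem_insert] at hp
        rcases hp.1 with h | h
        · subst h; exact absurd hmem hp.2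
        · apply hf2 p
          rw [Finset.mem_sdiff]
          exact ⟨h, fun hh => hp.2 (Finset.mem_of_mem_erase hh)⟩
    · -- use the lower fibre
      have hE' : E ⊆ G := by
        intro p hp
        rcases Finset.mem_insert.1 (hE hp) with h | h
        · subst h; exact absurd hp hmem
        · exact h
      obtain ⟨f, hf, hf1, hf2⟩ := h1.2 _ hE'
      rw [Finset.mem_filter] at hf
      refine ⟨f, hf.1, hf1, ?_⟩
      intro p hp
      rw [Finset.mem_sdiff, Finset.mem_insert] at hp
      rcases hp.1 with h | h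
      · subst h
        simp only [hf.2]
        omega
      · exact hf2 p (Finset.mem_sdiff.2 ⟨h, hp.2⟩)

/-- **Main combinatorial lemma.**  A `2`-separated family of at least `2 q^r` functions
`X → [0,b)`, where `q ≥ |X| b + 1`, strongly shatters at least `2^{r+1}` sets. -/
theorem card_shatteredSets_ge (b q : ℕ) : ∀ (r : ℕ) (X : Finset ι) (F : Finset (ι → ℤ)),
    (∀ f ∈ F, ∀ x ∈ X, 0 ≤ f x ∧ f x < b) → SepOn X F → X.card * b + 1 ≤ q →
    2 * q ^ r ≤ F.card → 2 ^ (r + 1) ≤ (shatteredSets X b F).card := by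
  intro r
  induction r with
  | zero =>
    intro X F hval hsep _ hcard
    simp only [pow_zero, mul_one] at hcard
    obtain ⟨f, hf, g, hg, hne⟩ := Finset.one_lt_card.1 (by omega : 1 < F.card)
    obtain ⟨x, hx, hxfg⟩ := hsep f hf g hg hne
    have hempty : ∅ ∈ shatteredSets X b F := empty_mem_shatteredSets ⟨f, hf⟩
    have hex : ∃ v : ℤ, {(x, v)} ∈ shatteredSets X b F := by
      rcases le_abs.1 hxfg with h | h
      · exact ⟨g x + 1, singleton_mem_shatteredSets hval hg hf hx (by omega)⟩
      · exact ⟨f x + 1, singleton_mem_shatteredSets hval hf hg hx (by omega)⟩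
    obtain ⟨v, hv⟩ := hex
    have hsub : ({∅, {(x, v)}} : Finset (Finset (ι × ℤ))) ⊆ shatteredSets X b F := by
      intro G hG
      rw [Finset.mem_insert, Finset.mem_singleton] at hG
      rcases hG with rfl | rfl
      · exact hempty
      · exact hv
    have hc : ({∅, {(x, v)}} : Finset (Finset (ι × ℤ))).card = 2 := by
      apply Finset.card_pair
      intro h
      have : (x, v) ∈ (∅ : Finset (ι × ℤ)) := by rw [h]; simp
      simp at this
    calc 2 ^ (0 + 1) = 2 := by norm_num
      _ = ({∅, {(x, v)}} : Finset (Finset (ι × ℤ))).card := hc.symm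
      _ ≤ _ := Finset.card_le_card hsub
  | succ r ih =>
    intro X F hval hsep hq hcard
    set N := 2 * q ^ r with hN
    have hqpos : 1 ≤ q := by omega
    have hN2 : 2 ≤ N := by
      have : 1 ≤ q ^ r := Nat.one_le_pow _ _ hqpos
      omega
    have hbig : X.card * b * (N - 1) + 2 ≤ F.card := by
      have h1 : X.card * b * (N - 1) ≤ X.card * b * N := Nat.mul_le_mul_left _ (Nat.sub_le _ _)
      have h2 : (X.card * b + 1) * N ≤ q * N := Nat.mul_le_mul_right _ hq
      have h3 : 2 * q ^ (r + 1) = q * N := by rw [hN, pow_succ]; ring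
      have h4 : (X.card * b + 1) * N = X.card * b * N + N := by ring
      omega
    obtain ⟨x₀, hx₀, i, j, hij, hi, hj⟩ := exists_big_pair hval hsep hbig
    set F₁ := F.filter (fun f => f x₀ = i) with hF₁
    set F₂ := F.filter (fun f => f x₀ = j) with hF₂
    set X' := X.erase x₀ with hX'
    have hX'card : X'.card * b + 1 ≤ q := by
      have : X'.card ≤ X.card := Finset.card_le_card (Finset.erase_subset _ _)
      have := Nat.mul_le_mul_right b this
      omega
    have hsepfib : ∀ c : ℤ, SepOn X' (F.filter (fun f => f x₀ = c)) := by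
      intro c f hf g hg hne
      rw [Finset.mem_filter] at hf hg
      obtain ⟨x, hx, hxfg⟩ := hsep f hf.1 g hg.1 hne
      refine ⟨x, Finset.mem_erase.2 ⟨?_, hx⟩, hxfg⟩
      rintro rfl
      rw [hf.2, hg.2] at hxfg
      simp at hxfg
    have hvalfib : ∀ c : ℤ, ∀ f ∈ F.filter (fun f => f x₀ = c), ∀ x ∈ X', 0 ≤ f x ∧ f x < b := by
      intro c f hf x hx
      exact hval f (Finset.mem_filter.1 hf).1 x (Finset.mem_of_mem_erase hx)
    have ih1 := ih X' F₁ (hvalfib i) (hsepfib i) hX'card hi
    have ih2 := ih X' F₂ (hvalfib j) (hsepfib j) hX'card hj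
    set S₁ := shatteredSets X' b F₁ with hS₁
    set S₂ := shatteredSets X' b F₂ with hS₂
    -- bounds on `i`, `j`
    have hi0 : 0 ≤ i := by
      obtain ⟨f, hf⟩ := Finset.card_pos.1 (by omega : 0 < F₁.card)
      rw [hF₁, Finset.mem_filter] at hf
      rw [← hf.2]; exact (hval f hf.1 x₀ hx₀).1
    have hjb : j < b := by
      obtain ⟨f, hf⟩ := Finset.card_pos.1 (by omega : 0 < F₂.card)
      rw [hF₂, Finset.mem_filter] at hf
      rw [← hf.2]; exact (hval f hf.1 x₀ hx₀).2
    have hsub1 : S₁ ∪ S₂ ⊆ shatteredSets X b F := by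
      apply Finset.union_subset
      · exact shatteredSets_mono (Finset.erase_subset _ _) (Finset.filter_subset _ _)
      · exact shatteredSets_mono (Finset.erase_subset _ _) (Finset.filter_subset _ _)
    have hnotmem : ∀ G ∈ S₁ ∪ S₂, (x₀, i + 1) ∉ G := by
      intro G hG hmem
      have hGsub : G ⊆ X' ×ˢ Finset.Ico (0 : ℤ) b := by
        rcases Finset.mem_union.1 hG with h | h
        · exact (mem_shatteredSets.1 h).1
        · exact (mem_shatteredSets.1 h).1
      have := hGsub hmem
      rw [Finset.mem_product] at this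
      exact (Finset.mem_erase.1 this.1).1 rfl
    set T := (S₁ ∩ S₂).image (fun G => insert (x₀, i + 1) G) with hT
    have hTcard : T.card = (S₁ ∩ S₂).card := by
      apply Finset.card_image_of_injOn
      intro G hG G' hG' hEq
      have hG1 : (x₀, i + 1) ∉ G :=
        hnotmem G (Finset.mem_union_left _ (Finset.mem_inter.1 hG).1)
      have hG2 : (x₀, i + 1) ∉ G' :=
        hnotmem G' (Finset.mem_union_left _ (Finset.mem_inter.1 hG').1)
      have h := congrArg (fun A => Finset.erase A (x₀, i + 1)) hEq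
      simpa [Finset.erase_insert hG1, Finset.erase_insert hG2] using h
    have hsub2 : T ⊆ shatteredSets X b F := by
      intro G hG
      rw [hT, Finset.mem_image] at hG
      obtain ⟨G₀, hG₀, rfl⟩ := hG
      rw [Finset.mem_inter] at hG₀
      exact insert_mem_shatteredSets hx₀ hi0 hjb hij hG₀.1 hG₀.2
    have hdisj : Disjoint (S₁ ∪ S₂) T := by
      rw [Finset.disjoint_left]
      intro G hG hGT
      rw [hT, Finset.mem_image] at hGT
      obtain ⟨G₀, _, rfl⟩ := hGT
      exact hnotmem _ hG (Finset.mem_insert_self _ _)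
    have hfinal : (S₁ ∪ S₂).card + T.card ≤ (shatteredSets X b F).card := by
      rw [← Finset.card_union_of_disjoint hdisj]
      exact Finset.card_le_card (Finset.union_subset hsub1 hsub2)
    have hsum := Finset.card_union_add_card_inter S₁ S₂
    have hpow : 2 ^ (r + 1 + 1) = 2 ^ (r + 1) + 2 ^ (r + 1) := by ring
    omega

/-- The number of subsets of size at most `d` of a finite set `U` is at most `(|U|+1)^d`. -/
theorem card_filter_card_le {α : Type*} [DecidableEq α] (U : Finset α) (d : ℕ) :
    ((U.powerset).filter (fun G => G.card ≤ d)).card ≤ (U.card + 1) ^ d := by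
  have hsub : (U.powerset).filter (fun G => G.card ≤ d)
      ⊆ (Finset.range (d + 1)).biUnion (fun i => U.powersetCard i) := by
    intro G hG
    rw [Finset.mem_filter, Finset.mem_powerset] at hG
    rw [Finset.mem_biUnion]
    exact ⟨G.card, Finset.mem_range.2 (by omega), Finset.mem_powersetCard.2 ⟨hG.1, rfl⟩⟩
  calc ((U.powerset).filter (fun G => G.card ≤ d)).card
      ≤ ((Finset.range (d + 1)).biUnion (fun i => U.powersetCard i)).card :=
        Finset.card_le_card hsub
    _ ≤ ∑ i ∈ Finset.range (d + 1), (U.powersetCard i).card := Finset.card_biUnion_le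
    _ = ∑ i ∈ Finset.range (d + 1), U.card.choose i := by
        simp only [Finset.card_powersetCard]
    _ ≤ ∑ i ∈ Finset.range (d + 1), U.card ^ i * 1 ^ (d - i) * d.choose i := by
        apply Finset.sum_le_sum
        intro i hi
        have h1 : U.card.choose i ≤ U.card ^ i := Nat.choose_le_pow _ _
        have h2 : 1 ≤ d.choose i :=
          Nat.choose_pos (by have := Finset.mem_range.1 hi; omega)
        calc U.card.choose i ≤ U.card ^ i := h1
          _ = U.card ^ i * 1 ^ (d - i) * 1 := by simp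
          _ ≤ U.card ^ i * 1 ^ (d - i) * d.choose i := Nat.mul_le_mul_left _ h2
    _ = (U.card + 1) ^ d := (add_pow _ _ _).symm

/-- **Packing bound.** If every strongly shattered set has at most `d` elements then a
`2`-separated family of functions `X → [0,b)` has fewer than `2 q^{(⌊log₂ q⌋+1) d}` members,
for any `q ≥ |X| b + 1`. -/
theorem card_lt_of_shatter_le {X : Finset ι} {b q d : ℕ} {F : Finset (ι → ℤ)}
    (hval : ∀ f ∈ F, ∀ x ∈ X, 0 ≤ f x ∧ f x < b) (hsep : SepOn X F) (hq : X.card * b + 1 ≤ q)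
    (hd : ∀ G ∈ shatteredSets X b F, G.card ≤ d) :
    F.card < 2 * q ^ ((Nat.log 2 q + 1) * d) := by
  classical
  by_contra hcon
  rw [not_lt] at hcon
  have h1 := card_shatteredSets_ge b q _ X F hval hsep hq hcon
  have h2 : (shatteredSets X b F).card ≤ ((X ×ˢ Finset.Ico (0 : ℤ) b).card + 1) ^ d := by
    refine le_trans (Finset.card_le_card ?_) (card_filter_card_le _ d)
    intro G hG
    rw [Finset.mem_filter, Finset.mem_powerset]
    exact ⟨(mem_shatteredSets.1 hG).1, hd G hG⟩
  have h3 : (X ×ˢ Finset.Ico (0 : ℤ) b).card + 1 ≤ q := by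
    rw [Finset.card_product, Int.card_Ico]
    simpa using hq
  have h4 : q ≤ 2 ^ (Nat.log 2 q + 1) := (Nat.lt_pow_succ_log_self (by norm_num) q).le
  have h5 : ((X ×ˢ Finset.Ico (0 : ℤ) b).card + 1) ^ d ≤ 2 ^ ((Nat.log 2 q + 1) * d) := by
    calc ((X ×ˢ Finset.Ico (0 : ℤ) b).card + 1) ^ d ≤ q ^ d := Nat.pow_le_pow_left h3 d
      _ ≤ (2 ^ (Nat.log 2 q + 1)) ^ d := Nat.pow_le_pow_left h4 d
      _ = 2 ^ ((Nat.log 2 q + 1) * d) := by rw [← pow_mul]
  have h6 : 2 ^ ((Nat.log 2 q + 1) * d + 1) = 2 * 2 ^ ((Nat.log 2 q + 1) * d) := by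
    rw [pow_succ]; ring
  have h7 : 0 < 2 ^ ((Nat.log 2 q + 1) * d) := by positivity
  omega

/-- Every finite family contains a `2`-separated subfamily that is a `1`-net for it. -/
theorem exists_sep_net (X : Finset ι) (A : Finset (ι → ℤ)) :
    ∃ F ⊆ A, SepOn X F ∧ ∀ g ∈ A, ∃ f ∈ F, ∀ x ∈ X, |f x - g x| ≤ 1 := by
  classical
  induction A using Finset.induction_on with
  | empty => exact ⟨∅, by simp, by intro f hf; simp at hf, by simp⟩
  | insert a A _ ih =>
    obtain ⟨F, hFA, hsep, hnet⟩ := ih
    by_cases h : ∃ f ∈ F, ∀ x ∈ X, |f x - a x| ≤ 1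
    · refine ⟨F, hFA.trans (Finset.subset_insert _ _), hsep, ?_⟩
      intro g hg
      rcases Finset.mem_insert.1 hg with rfl | hg
      · exact h
      · exact hnet g hg
    · have h' : ∀ f ∈ F, ∃ x ∈ X, 2 ≤ |f x - a x| := by
        intro f hf
        by_contra hcon
        apply h
        refine ⟨f, hf, ?_⟩
        intro x hx
        by_contra hx2
        exact hcon ⟨x, hx, by omega⟩
      refine ⟨insert a F, Finset.insert_subset_insert _ hFA, ?_, ?_⟩
      · intro f hf g hg hne
        rcases Finset.mem_insert.1 hf with hfa | hfF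
        · rcases Finset.mem_insert.1 hg with hga | hgF
          · exact absurd (hfa.trans hga.symm) hne
          · obtain ⟨x, hx, hx2⟩ := h' g hgF
            exact ⟨x, hx, by rw [hfa, abs_sub_comm]; exact hx2⟩
        · rcases Finset.mem_insert.1 hg with hga | hgF
          · rw [hga]; exact h' f hfF
          · exact hsep f hfF g hgF hne
      · intro g hg
        rcases Finset.mem_insert.1 hg with rfl | hg
        · exact ⟨g, Finset.mem_insert_self _ _, by simp⟩
        · obtain ⟨f, hf, hfg⟩ := hnet g hg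
          exact ⟨f, Finset.mem_insert_of_mem hf, hfg⟩

end Vale.Agent.Lib.P126
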