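import Vale.Agent.Lib.P126.Basic

open scoped Pointwise
open MeasureTheory

namespace Vale.Agent.Lib.P126

theorem l1Ball_eq_smul (v : ℕ) {r : ℝ} (hr : 0 < r) : l1Ball v r = r • l1Ball v 1 := by
  ext y
  rw [Set.mem_smul_set]
  constructor
  · intro hy
    have hy' : ∑ i, |y i| ≤ r := hy
    refine ⟨r⁻¹ • y, ?_, ?_⟩
    · show ∑ i, |(r⁻¹ • y) i| ≤ 1
      have : ∀ i, |(r⁻¹ • y) i| = r⁻¹ * |y i| := by
        intro i
        simp only [PiLp.smul_apply, smul_eq_mul, abs_mul, abs_of_pos (inv_pos.2 hr)]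
      rw [Finset.sum_congr rfl (fun i _ => this i), ← Finset.mul_sum]
      calc r⁻¹ * ∑ i, |y i| ≤ r⁻¹ * r := by gcongr
        _ = 1 := inv_mul_cancel₀ hr.ne'
    · rw [smul_smul, mul_inv_cancel₀ hr.ne', one_smul]
  · rintro ⟨u, hu, rfl⟩
    have hu' : ∑ i, |u i| ≤ 1 := hu
    show ∑ i, |(r • u) i| ≤ r
    have : ∀ i, |(r • u) i| = r * |u i| := by
      intro i
      simp only [PiLp.smul_apply, smul_eq_mul, abs_mul, abs_of_pos hr]
    rw [Finset.sum_congr rfl (fun i _ => this i), ← Finset.mul_sum]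
    calc r * ∑ i, |u i| ≤ r * 1 := by gcongr
      _ = r := mul_one r

/-- Volume argument: if the `ℓ₁`-ball of `ℝ^v` is split into cells indexed by `S`, each of
`ℓ₁`-diameter at most `1/2`, then `2^v ≤ |S|`. -/
theorem two_pow_le_card_of_cells {β : Type*} (v : ℕ) (S : Finset β)
    (R : β → EuclideanSpace ℝ (Fin v) → Prop)
    (hcov : ∀ c ∈ l1Ball v 1, ∃ k ∈ S, R k c)
    (hdiam : ∀ k c c', R k c → R k c' → c - c' ∈ l1Ball v (1 / 2)) :
    2 ^ v ≤ S.card := by
  set μ : Measure (EuclideanSpace ℝ (Fin v)) := volume with hμ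
  set B := l1Ball v 1 with hB
  have hbody := l1Ball_isSymmConvexBody v one_pos
  have hfin : μ B ≠ ⊤ := hbody.isCompact.measure_lt_top.ne
  have hpos : 0 < μ B := Measure.measure_pos_of_nonempty_interior _ hbody.interior_nonempty
  have hhalf : μ (l1Ball v (1 / 2)) = ENNReal.ofReal ((1 / 2 : ℝ) ^ v) * μ B := by
    rw [l1Ball_eq_smul v (by norm_num : (0 : ℝ) < 1 / 2), Measure.addHaar_smul,
      finrank_euclideanSpace_fin, abs_of_pos (by positivity)]
  have hcell : ∀ k, μ {c | R k c} ≤ μ (l1Ball v (1 / 2)) := by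
    intro k
    by_cases hne : ∃ c₀, R k c₀
    · obtain ⟨c₀, hc₀⟩ := hne
      have hsub : {c | R k c} ⊆ c₀ +ᵥ l1Ball v (1 / 2) := by
        intro c hc
        rw [Set.mem_vadd_set]
        exact ⟨c - c₀, hdiam k c c₀ hc hc₀, by simp⟩
      calc μ {c | R k c} ≤ μ (c₀ +ᵥ l1Ball v (1 / 2)) := measure_mono hsub
        _ = μ (l1Ball v (1 / 2)) := measure_vadd _ _ _
    · have : {c | R k c} = ∅ := by
        ext c
        simp only [Set.mem_ofPred_eq, Set.mem_empty_iff_false, iff_false]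
        exact fun hc => hne ⟨c, hc⟩
      rw [this]; simp
  have hsubB : B ⊆ ⋃ k ∈ S, {c | R k c} := by
    intro c hc
    obtain ⟨k, hk, hR⟩ := hcov c hc
    simp only [Set.mem_iUnion, exists_prop]
    exact ⟨k, hk, hR⟩
  have hmain : μ B ≤ S.card * (ENNReal.ofReal ((1 / 2 : ℝ) ^ v) * μ B) := by
    calc μ B ≤ μ (⋃ k ∈ S, {c | R k c}) := measure_mono hsubB
      _ ≤ ∑ k ∈ S, μ {c | R k c} := measure_biUnion_finset_le _ _
      _ ≤ ∑ _k ∈ S, μ (l1Ball v (1 / 2)) := Finset.sum_le_sum (fun k _ => hcell k)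
      _ = S.card * (ENNReal.ofReal ((1 / 2 : ℝ) ^ v) * μ B) := by
          rw [Finset.sum_const, nsmul_eq_mul, hhalf]
  -- pass to real numbers
  have hreal := ENNReal.toReal_mono (by
    apply ENNReal.mul_ne_top (ENNReal.natCast_ne_top _)
    exact ENNReal.mul_ne_top ENNReal.ofReal_ne_top hfin) hmain
  rw [ENNReal.toReal_mul, ENNReal.toReal_mul, ENNReal.toReal_natCast,
    ENNReal.toReal_ofReal (by positivity)] at hreal
  have hβ : 0 < (μ B).toReal := ENNReal.toReal_pos hpos.ne' hfin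
  have h1 : (1 : ℝ) ≤ S.card * (1 / 2 : ℝ) ^ v := by
    by_contra hlt
    rw [not_le] at hlt
    have : (S.card : ℝ) * ((1 / 2 : ℝ) ^ v * (μ B).toReal) < 1 * (μ B).toReal := by
      rw [← mul_assoc]
      exact mul_lt_mul_of_pos_right hlt hβ
    linarith
  have h2 : (2 : ℝ) ^ v ≤ S.card := by
    have h3 : (1 / 2 : ℝ) ^ v = 1 / 2 ^ v := by rw [div_pow, one_pow]
    rw [h3, mul_one_div, le_div_iff₀ (by positivity), one_mul] at h1
    exact h1
  exact_mod_cast h2

end Vale.Agent.Lib.P126
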