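import Vale.Agent.Lib.P126.WeakDuality
import Vale.Agent.Lib.P126.Shatter
import Vale.Agent.Lib.P126.Volume

open scoped Pointwise

namespace Vale.Agent.Lib.P126

variable {n : ℕ}

theorem IsSymmConvexBody.zero_mem {K : Set (EuclideanSpace ℝ (Fin n))} (hK : IsSymmConvexBody K) :
    (0 : EuclideanSpace ℝ (Fin n)) ∈ K := by
  obtain ⟨ε, hε, hball⟩ := hK.exists_ball_subset
  exact hball (Metric.mem_ball_self hε)

/-- Symmetric convex bodies are closed under absolutely convex combinations. -/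
theorem IsSymmConvexBody.sum_smul_mem {K : Set (EuclideanSpace ℝ (Fin n))}
    (hK : IsSymmConvexBody K) {v : ℕ} (X : Fin v → EuclideanSpace ℝ (Fin n))
    (hX : ∀ t, X t ∈ K) (c : Fin v → ℝ) (hc : ∑ t, |c t| ≤ 1) : ∑ t, c t • X t ∈ K := by
  set S := ∑ t, |c t| with hS
  have hS0 : 0 ≤ S := Finset.sum_nonneg (fun t _ => abs_nonneg _)
  rcases hS0.eq_or_lt with h0 | hpos
  · have hz : ∀ t, c t = 0 := by
      intro t
      have := (Finset.sum_eq_zero_iff_of_nonneg (fun t _ => abs_nonneg (c t))).1 h0.symm t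
        (Finset.mem_univ t)
      exact abs_eq_zero.1 this
    simp only [hz, zero_smul, Finset.sum_const_zero]
    exact hK.zero_mem
  · set Y : Fin v → EuclideanSpace ℝ (Fin n) := fun t => if 0 ≤ c t then X t else -X t with hY
    have hYK : ∀ t, Y t ∈ K := by
      intro t
      simp only [hY]
      split_ifs
      · exact hX t
      · exact hK.neg_mem _ (hX t)
    have hcY : ∀ t, c t • X t = |c t| • Y t := by
      intro t
      simp only [hY]
      split_ifs with h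
      · rw [abs_of_nonneg h]
      · rw [abs_of_neg (not_le.1 h)]; simp
    have h1 : ∑ t, (|c t| / S) • Y t ∈ K := by
      apply hK.convex.sum_mem
      · intro t _; positivity
      · rw [← Finset.sum_div, div_self hpos.ne']
      · intro t _; exact hYK t
    have h2 := hK.smul_mem h1 (t := S) ⟨by linarith, hc⟩
    have h3 : S • ∑ t, (|c t| / S) • Y t = ∑ t, c t • X t := by
      rw [Finset.smul_sum]
      apply Finset.sum_congr rfl
      intro t _
      rw [smul_smul, mul_div_cancel₀ _ hpos.ne', hcY]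
    rwa [h3] at h2

theorem polarBody_half_sub_mem {L : Set (EuclideanSpace ℝ (Fin n))} (hL : IsSymmConvexBody L)
    {z₁ z₂ : EuclideanSpace ℝ (Fin n)} (h₁ : z₁ ∈ polarBody L) (h₂ : z₂ ∈ polarBody L) :
    (1 / 2 : ℝ) • (z₁ - z₂) ∈ polarBody L := by
  intro l hl
  have a1 := h₁ l hl
  have a2 := h₂ (-l) (hL.neg_mem l hl)
  rw [inner_neg_left] at a2
  rw [real_inner_smul_right, inner_sub_right]
  linarith

/-- A set strongly shattered by discretised functionals from `L°` on points of `K` has at most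
`log₂ |s|` elements, if `K` is covered by the translates `x + L`, `x ∈ s`. -/
theorem two_pow_card_le_of_shatters {K L : Set (EuclideanSpace ℝ (Fin n))}
    (hK : IsSymmConvexBody K) (hL : IsSymmConvexBody L)
    (s : Finset (EuclideanSpace ℝ (Fin n))) (hs : K ⊆ ⋃ x ∈ s, (x +ᵥ L))
    {ι : Type*} [DecidableEq ι] (kpt : ι → EuclideanSpace ℝ (Fin n)) (hkK : ∀ x, kpt x ∈ K)
    (Gc : ℤ) (F : Finset (ι → ℤ))
    (hF : ∀ f ∈ F, ∃ z ∈ polarBody L, ∀ x, f x = ⌊inner ℝ (kpt x) z / 8⌋ + Gc)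
    (G₀ : Finset (ι × ℤ)) (hsh : StronglyShatters F G₀) : 2 ^ G₀.card ≤ s.card := by
  classical
  set v := G₀.card with hv
  set e : {g // g ∈ G₀} ≃ Fin v := G₀.equivFin with he
  set X : Fin v → EuclideanSpace ℝ (Fin n) := fun t => kpt (e.symm t).1.1 with hX
  apply two_pow_le_card_of_cells v s (fun x c => ∑ t, c t • X t ∈ x +ᵥ L)
  · intro c hc
    have hmem : ∑ t, c t • X t ∈ K := hK.sum_smul_mem X (fun t => hkK _) (fun t => c t) hc
    have := hs hmem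
    simpa only [Set.mem_iUnion, exists_prop] using this
  · intro x c c' hc hc'
    obtain ⟨l, hl, hl'⟩ := Set.mem_vadd_set.1 hc
    obtain ⟨l₂, hl₂, hl₂'⟩ := Set.mem_vadd_set.1 hc'
    simp only [vadd_eq_add] at hl' hl₂'
    set u : Fin v → ℝ := fun t => c t - c' t with hu
    set E : Finset (ι × ℤ) :=
      (Finset.univ.filter (fun t : Fin v => 0 ≤ u t)).image (fun t => (e.symm t).1) with hE
    have hEsub : E ⊆ G₀ := by
      intro g hg
      rw [hE, Finset.mem_image] at hg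
      obtain ⟨t, _, rfl⟩ := hg
      exact (e.symm t).2
    have hEmem : ∀ t : Fin v, (e.symm t).1 ∈ E ↔ 0 ≤ u t := by
      intro t
      rw [hE, Finset.mem_image]
      constructor
      · rintro ⟨t', ht', heq⟩
        have : t' = t := e.symm.injective (Subtype.ext heq)
        subst this
        exact (Finset.mem_filter.1 ht').2
      · intro ht
        exact ⟨t, Finset.mem_filter.2 ⟨Finset.mem_univ _, ht⟩, rfl⟩
    obtain ⟨f₁, hf₁, hf₁a, hf₁b⟩ := hsh E hEsub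
    obtain ⟨f₂, hf₂, hf₂a, hf₂b⟩ := hsh (G₀ \ E) Finset.sdiff_subset
    obtain ⟨z₁, hz₁, hz₁'⟩ := hF f₁ hf₁
    obtain ⟨z₂, hz₂, hz₂'⟩ := hF f₂ hf₂
    set w : EuclideanSpace ℝ (Fin n) := (1 / 2 : ℝ) • (z₁ - z₂) with hw
    have hwL : w ∈ polarBody L := polarBody_half_sub_mem hL hz₁ hz₂
    have hinner : ∀ t, inner ℝ (X t) w = (inner ℝ (X t) z₁ - inner ℝ (X t) z₂) / 2 := by
      intro t
      rw [hw, real_inner_smul_right, inner_sub_right]; ring
    have hterm : ∀ t, 4 * |u t| ≤ u t * inner ℝ (X t) w := by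
      intro t
      set g := (e.symm t).1 with hg
      have hgG : g ∈ G₀ := (e.symm t).2
      have hXt : X t = kpt g.1 := rfl
      by_cases ht : 0 ≤ u t
      · have hgE : g ∈ E := (hEmem t).2 ht
        have a1 := hf₁a g hgE
        have a2 := hf₂b g (by
          rw [Finset.mem_sdiff, Finset.mem_sdiff]
          exact ⟨hgG, fun h => h.2 hgE⟩)
        rw [hz₁'] at a1
        rw [hz₂'] at a2
        have a3 : ⌊inner ℝ (kpt g.1) z₂ / 8⌋ + 2 ≤ ⌊inner ℝ (kpt g.1) z₁ / 8⌋ := by omega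
        have b1 : (⌊inner ℝ (kpt g.1) z₁ / 8⌋ : ℝ) ≤ inner ℝ (kpt g.1) z₁ / 8 := Int.floor_le _
        have b2 : inner ℝ (kpt g.1) z₂ / 8 < ⌊inner ℝ (kpt g.1) z₂ / 8⌋ + 1 :=
          Int.lt_floor_add_one _
        have b3 : ((⌊inner ℝ (kpt g.1) z₂ / 8⌋ : ℤ) : ℝ) + 2 ≤ ⌊inner ℝ (kpt g.1) z₁ / 8⌋ := by
          exact_mod_cast a3
        have b4 : 4 ≤ inner ℝ (X t) w := by
          rw [hinner, hXt]; linarith
        rw [abs_of_nonneg ht]
        nlinarith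
      · have hgE : g ∉ E := fun h => ht ((hEmem t).1 h)
        have a1 := hf₁b g (Finset.mem_sdiff.2 ⟨hgG, hgE⟩)
        have a2 := hf₂a g (Finset.mem_sdiff.2 ⟨hgG, hgE⟩)
        rw [hz₁'] at a1
        rw [hz₂'] at a2
        have a3 : ⌊inner ℝ (kpt g.1) z₁ / 8⌋ + 2 ≤ ⌊inner ℝ (kpt g.1) z₂ / 8⌋ := by omega
        have b1 : (⌊inner ℝ (kpt g.1) z₂ / 8⌋ : ℝ) ≤ inner ℝ (kpt g.1) z₂ / 8 := Int.floor_le _
        have b2 : inner ℝ (kpt g.1) z₁ / 8 < ⌊inner ℝ (kpt g.1) z₁ / 8⌋ + 1 :=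
          Int.lt_floor_add_one _
        have b3 : ((⌊inner ℝ (kpt g.1) z₁ / 8⌋ : ℤ) : ℝ) + 2 ≤ ⌊inner ℝ (kpt g.1) z₂ / 8⌋ := by
          exact_mod_cast a3
        have b4 : inner ℝ (X t) w ≤ -4 := by
          rw [hinner, hXt]; linarith
        rw [abs_of_neg (not_le.1 ht)]
        nlinarith [not_le.1 ht]
    have hsum : ∑ t, u t * inner ℝ (X t) w ≤ 2 := by
      have h1 : ∑ t, u t * inner ℝ (X t) w
          = inner ℝ (∑ t, c t • X t) w - inner ℝ (∑ t, c' t • X t) w := by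
        rw [sum_inner, sum_inner, ← Finset.sum_sub_distrib]
        apply Finset.sum_congr rfl
        intro t _
        rw [real_inner_smul_left, real_inner_smul_left, hu]
        ring
      rw [h1, ← hl', ← hl₂', inner_add_left, inner_add_left]
      have a1 := hwL l hl
      have a2 := hwL (-l₂) (hL.neg_mem l₂ hl₂)
      rw [inner_neg_left] at a2
      linarith
    show ∑ t, |(c - c') t| ≤ 1 / 2
    have h4 : 4 * ∑ t, |u t| ≤ 2 := by
      rw [Finset.mul_sum]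
      exact (Finset.sum_le_sum (fun t _ => hterm t)).trans hsum
    have h5 : ∀ t, |(c - c') t| = |u t| := fun t => rfl
    rw [Finset.sum_congr rfl (fun t _ => h5 t)]
    linarith

/-- **Quasi-polynomial duality at scale `20`.**  With `m = N(K,L)` and
`q = m (2⌈m/8⌉+1) + 1` one has `N(L°, 20 K°) ≤ 2 q^{(⌊log₂ q⌋+1) ⌊log₂ m⌋}`. -/
theorem covNum_polar_le_quasi {K L : Set (EuclideanSpace ℝ (Fin n))} (hK : IsSymmConvexBody K)
    (hL : IsSymmConvexBody L) :
    covNum (polarBody L) ((20 : ℝ) • polarBody K)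
      ≤ 2 * (covNum K L * (2 * ⌈(covNum K L : ℝ) / 8⌉₊ + 1) + 1) ^
          ((Nat.log 2 (covNum K L * (2 * ⌈(covNum K L : ℝ) / 8⌉₊ + 1) + 1) + 1)
            * Nat.log 2 (covNum K L)) := by
  classical
  obtain ⟨s, hscard, hs⟩ := exists_cover_card_eq
    (exists_finite_cover hK.isCompact.isBounded hL.interior_nonempty)
  set m := covNum K L with hm
  set G : ℕ := ⌈(m : ℝ) / 8⌉₊ with hG
  set b : ℕ := 2 * G + 1 with hb
  set q : ℕ := m * b + 1 with hq
  set s' : Finset (EuclideanSpace ℝ (Fin n)) := s.filter (fun x => ((x +ᵥ L) ∩ K).Nonempty)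
    with hs'
  have hs'cov : ∀ y ∈ K, ∃ x ∈ s', y ∈ x +ᵥ L := by
    intro y hy
    have := hs hy
    simp only [Set.mem_iUnion, exists_prop] at this
    obtain ⟨x, hx, hyx⟩ := this
    exact ⟨x, Finset.mem_filter.2 ⟨hx, ⟨y, hyx, hy⟩⟩, hyx⟩
  have hs'card : s'.card ≤ m := by
    rw [← hscard]; exact Finset.card_filter_le _ _
  have hk : ∀ x : {x // x ∈ s'}, ∃ y, y ∈ (x : EuclideanSpace ℝ (Fin n)) +ᵥ L ∧ y ∈ K := by
    intro x
    obtain ⟨-, y, hyx, hyK⟩ := Finset.mem_filter.1 x.2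
    exact ⟨y, hyx, hyK⟩
  choose kpt hkL hkK using hk
  have hbound : ∀ x, ∀ z ∈ polarBody L, |inner ℝ (kpt x) z| ≤ (m : ℝ) := by
    intro x z hz
    have h1 : inner ℝ (kpt x) z ≤ m := by
      rw [← hscard]; exact inner_le_card_of_cover hK hL s hs (hkK x) hz
    have h2 : inner ℝ (-(kpt x)) z ≤ m := by
      rw [← hscard]; exact inner_le_card_of_cover hK hL s hs (hK.neg_mem _ (hkK x)) hz
    rw [inner_neg_left] at h2
    rw [abs_le]; constructor <;> linarith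
  set fz : EuclideanSpace ℝ (Fin n) → ({x // x ∈ s'} → ℤ) :=
    fun z x => ⌊inner ℝ (kpt x) z / 8⌋ + (G : ℤ) with hfz
  have hfzval : ∀ z ∈ polarBody L, ∀ x, 0 ≤ fz z x ∧ fz z x < b := by
    intro z hz x
    have hbd := abs_le.1 (hbound x z hz)
    have hGle : (m : ℝ) / 8 ≤ G := Nat.le_ceil _
    have h1 : -(G : ℤ) ≤ ⌊inner ℝ (kpt x) z / 8⌋ := by
      apply Int.le_floor.2
      push_cast
      linarith [hbd.1]
    have h2 : ⌊inner ℝ (kpt x) z / 8⌋ ≤ (G : ℤ) := by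
      have h3 : (⌊inner ℝ (kpt x) z / 8⌋ : ℝ) ≤ (G : ℝ) :=
        (Int.floor_le _).trans (by linarith [hbd.2])
      exact_mod_cast h3
    simp only [hfz, hb]
    push_cast
    constructor <;> omega
  set A : Finset ({x // x ∈ s'} → ℤ) :=
    (Fintype.piFinset (fun _ : {x // x ∈ s'} => Finset.Ico (0 : ℤ) b)).filter
      (fun f => ∃ z ∈ polarBody L, fz z = f) with hA
  have hfzA : ∀ z ∈ polarBody L, fz z ∈ A := by
    intro z hz
    rw [hA, Finset.mem_filter, Fintype.mem_piFinset]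
    exact ⟨fun x => Finset.mem_Ico.2 (hfzval z hz x), z, hz, rfl⟩
  obtain ⟨F, hFA, hsep, hnet⟩ := exists_sep_net (Finset.univ : Finset {x // x ∈ s'}) A
  have hFrep : ∀ f ∈ F, ∃ z ∈ polarBody L, fz z = f := fun f hf =>
    (Finset.mem_filter.1 (hFA hf)).2
  -- cardinality of `F`
  have hFcard : F.card < 2 * q ^ ((Nat.log 2 q + 1) * Nat.log 2 m) := by
    apply card_lt_of_shatter_le (X := Finset.univ) (b := b)
    · intro f hf x _
      obtain ⟨z, hz, rfl⟩ := hFrep f hf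
      exact hfzval z hz x
    · exact hsep
    · rw [Finset.card_univ, Fintype.card_coe, hq]
      have := Nat.mul_le_mul_right b hs'card
      omega
    · intro G₀ hG₀
      have h2 : 2 ^ G₀.card ≤ s.card :=
        two_pow_card_le_of_shatters hK hL s hs kpt hkK (G : ℤ) F
          (fun f hf => by
            obtain ⟨z, hz, rfl⟩ := hFrep f hf
            exact ⟨z, hz, fun x => rfl⟩) G₀ (mem_shatteredSets.1 hG₀).2
      rw [hscard] at h2
      exact Nat.le_log_of_pow_le (by norm_num) h2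
  set rep : ({x // x ∈ s'} → ℤ) → EuclideanSpace ℝ (Fin n) :=
    fun f => if h : ∃ z ∈ polarBody L, fz z = f then h.choose else 0 with hrep
  have hrep_spec : ∀ f ∈ F, rep f ∈ polarBody L ∧ fz (rep f) = f := by
    intro f hf
    have h := hFrep f hf
    simp only [hrep, dif_pos h]
    exact h.choose_spec
  set W : Finset (EuclideanSpace ℝ (Fin n)) := F.image rep with hW
  have hWcard : W.card ≤ 2 * q ^ ((Nat.log 2 q + 1) * Nat.log 2 m) :=
    Finset.card_image_le.trans hFcard.le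
  refine (covNum_le_card W ?_).trans hWcard
  intro z hz
  obtain ⟨f, hf, hfz'⟩ := hnet (fz z) (hfzA z hz)
  obtain ⟨hw, hfw⟩ := hrep_spec f hf
  set w := rep f with hwdef
  simp only [Set.mem_iUnion, exists_prop]
  refine ⟨w, Finset.mem_image.2 ⟨f, hf, rfl⟩, ?_⟩
  rw [Set.mem_vadd_set]
  refine ⟨(20 : ℝ) • ((20 : ℝ)⁻¹ • (z - w)), ?_, ?_⟩
  · apply Set.smul_mem_smul_set
    intro y hy
    obtain ⟨x, hx, hyx⟩ := hs'cov y hy
    obtain ⟨l, hl, hl'⟩ := Set.mem_vadd_set.1 hyx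
    obtain ⟨l₂, hl₂, hl₂'⟩ := Set.mem_vadd_set.1 (hkL ⟨x, hx⟩)
    simp only [vadd_eq_add] at hl' hl₂'
    have hy1 : y = kpt ⟨x, hx⟩ + l + (-l₂) := by
      rw [← hl', ← hl₂']; abel
    have hfl := hfz' ⟨x, hx⟩ (Finset.mem_univ _)
    rw [← hfw] at hfl
    simp only [hfz] at hfl
    have hfl2 : |⌊inner ℝ (kpt ⟨x, hx⟩) w / 8⌋ - ⌊inner ℝ (kpt ⟨x, hx⟩) z / 8⌋| ≤ 1 := by
      have : ⌊inner ℝ (kpt ⟨x, hx⟩) w / 8⌋ + (G : ℤ) - (⌊inner ℝ (kpt ⟨x, hx⟩) z / 8⌋ + (G : ℤ))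
          = ⌊inner ℝ (kpt ⟨x, hx⟩) w / 8⌋ - ⌊inner ℝ (kpt ⟨x, hx⟩) z / 8⌋ := by ring
      rwa [this] at hfl
    have c1 : ⌊inner ℝ (kpt ⟨x, hx⟩) z / 8⌋ ≤ ⌊inner ℝ (kpt ⟨x, hx⟩) w / 8⌋ + 1 := by
      have := (abs_le.1 hfl2).1
      omega
    have c2 : ((⌊inner ℝ (kpt ⟨x, hx⟩) z / 8⌋ : ℤ) : ℝ) ≤ ⌊inner ℝ (kpt ⟨x, hx⟩) w / 8⌋ + 1 := by
      exact_mod_cast c1
    have c3 : inner ℝ (kpt ⟨x, hx⟩) z / 8 < ⌊inner ℝ (kpt ⟨x, hx⟩) z / 8⌋ + 1 :=
      Int.lt_floor_add_one _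
    have c4 : (⌊inner ℝ (kpt ⟨x, hx⟩) w / 8⌋ : ℝ) ≤ inner ℝ (kpt ⟨x, hx⟩) w / 8 :=
      Int.floor_le _
    have c5 : inner ℝ (kpt ⟨x, hx⟩) z - inner ℝ (kpt ⟨x, hx⟩) w < 16 := by linarith
    have d1 := hz l hl
    have d2 := hw (-l) (hL.neg_mem l hl)
    have d3 := hz (-l₂) (hL.neg_mem l₂ hl₂)
    have d4 := hw l₂ hl₂
    rw [inner_neg_left] at d2 d3
    rw [real_inner_smul_right, hy1, inner_add_left, inner_add_left, inner_neg_left,
      inner_sub_right, inner_sub_right, inner_sub_right]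
    have h7 : inner ℝ (kpt ⟨x, hx⟩) z - inner ℝ (kpt ⟨x, hx⟩) w + (inner ℝ l z - inner ℝ l w)
        + -(inner ℝ l₂ z - inner ℝ l₂ w) ≤ 20 := by linarith
    calc (20 : ℝ)⁻¹ * (inner ℝ (kpt ⟨x, hx⟩) z - inner ℝ (kpt ⟨x, hx⟩) w
          + (inner ℝ l z - inner ℝ l w) + -(inner ℝ l₂ z - inner ℝ l₂ w))
        ≤ (20 : ℝ)⁻¹ * 20 := by gcongr
      _ = 1 := by norm_num
  · rw [smul_smul]
    norm_num

end Vale.Agent.Lib.P126
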