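import Vale.Agent.Lib.P126.Basic

open scoped Pointwise

namespace Vale.Agent.Lib.P126

/-- The vector `(1/n, …, 1/n)`. -/
noncomputable def xvec (n : ℕ) : EuclideanSpace ℝ (Fin n) := WithLp.toLp 2 (fun _ => (1 : ℝ) / n)

@[simp] theorem xvec_apply (n : ℕ) (i : Fin n) : xvec n i = 1 / n := rfl

/-- The body `[-x,x] + B_1^n`. -/
def bodyK (n : ℕ) : Set (EuclideanSpace ℝ (Fin n)) :=
  ((fun t : ℝ => t • xvec n) '' Set.Icc (-1) 1) + l1Ball n 1

theorem mem_bodyK {n : ℕ} {t : ℝ} (ht : t ∈ Set.Icc (-1 : ℝ) 1) {u : EuclideanSpace ℝ (Fin n)}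
    (hu : u ∈ l1Ball n 1) : t • xvec n + u ∈ bodyK n :=
  Set.add_mem_add ⟨t, ht, rfl⟩ hu

theorem bodyK_isSymmConvexBody (n : ℕ) : IsSymmConvexBody (bodyK n) where
  isCompact := by
    apply IsCompact.add
    · exact isCompact_Icc.image (by fun_prop)
    · exact (l1Ball_isSymmConvexBody n one_pos).isCompact
  convex := by
    apply Convex.add
    · have := (convex_Icc (-1 : ℝ) 1).linear_image (LinearMap.toSpanSingleton ℝ _ (xvec n))
      simpa [LinearMap.toSpanSingleton_apply] using this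
    · exact (l1Ball_isSymmConvexBody n one_pos).convex
  interior_nonempty := by
    have hsub : l1Ball n 1 ⊆ bodyK n := by
      intro u hu
      have := mem_bodyK (n := n) (t := 0) (by constructor <;> norm_num) hu
      simpa using this
    exact (l1Ball_isSymmConvexBody n one_pos).interior_nonempty.mono (interior_mono hsub)
  neg_mem := by
    intro y hy
    obtain ⟨_, ⟨t, ht, rfl⟩, u, hu, rfl⟩ := Set.mem_add.1 hy
    have := mem_bodyK (n := n) (t := -t) (by constructor <;> linarith [ht.1, ht.2])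
      ((l1Ball_isSymmConvexBody n one_pos).neg_mem u hu)
    have h2 : -((fun t : ℝ => t • xvec n) t + u) = -t • xvec n + -u := by
      simp only [neg_add, neg_smul]
    rw [h2]; exact this

theorem sum_abs_xvec_le (n : ℕ) (δ : ℝ) : ∑ _i : Fin n, |δ * (1 / (n : ℝ))| ≤ |δ| := by
  rw [Finset.sum_const, Finset.card_univ, Fintype.card_fin, nsmul_eq_mul, abs_mul]
  rcases Nat.eq_zero_or_pos n with h | h
  · subst h; simp
  · have hn : (0 : ℝ) < n := by exact_mod_cast h
    rw [abs_of_pos (by positivity : (0 : ℝ) < 1 / n)]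
    apply le_of_eq
    field_simp

/-- `[-x,x] + B_1^n` is covered by `2m+1` translates of `(1+1/m) B_1^n`. -/
theorem covNum_bodyK_le (n m : ℕ) (hm : 0 < m) :
    covNum (bodyK n) (l1Ball n (1 + 1 / m)) ≤ 2 * m + 1 := by
  classical
  have hm' : (0 : ℝ) < m := by exact_mod_cast hm
  set s : Finset (EuclideanSpace ℝ (Fin n)) :=
    (Finset.range (2 * m + 1)).image (fun j : ℕ => (-1 + (j : ℝ) / m) • xvec n) with hs
  have hcard : s.card ≤ 2 * m + 1 := by
    calc s.card ≤ (Finset.range (2 * m + 1)).card := Finset.card_image_le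
      _ = 2 * m + 1 := Finset.card_range _
  refine (covNum_le_card s ?_).trans hcard
  intro y hy
  obtain ⟨_, ⟨t, ht, rfl⟩, u, hu, rfl⟩ := Set.mem_add.1 hy
  have h0 : 0 ≤ (t + 1) * m := mul_nonneg (by linarith [ht.1]) hm'.le
  set j : ℕ := ⌊(t + 1) * m⌋₊ with hj
  have hj1 : (j : ℝ) ≤ (t + 1) * m := Nat.floor_le h0
  have hj2 : (t + 1) * m < j + 1 := Nat.lt_floor_add_one _
  have hj3 : j ≤ 2 * m := by
    apply Nat.floor_le_of_le
    push_cast
    nlinarith [ht.2]
  simp only [Set.mem_iUnion, exists_prop]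
  refine ⟨(-1 + (j : ℝ) / m) • xvec n, ?_, ?_⟩
  · rw [hs, Finset.mem_image]
    exact ⟨j, Finset.mem_range.2 (by omega), rfl⟩
  · rw [Set.mem_vadd_set]
    set δ : ℝ := t - (-1 + (j : ℝ) / m) with hδ
    have hδ0 : 0 ≤ δ := by
      rw [hδ]
      have : (j : ℝ) / m ≤ t + 1 := by rw [div_le_iff₀ hm']; exact hj1
      linarith
    have hδ1 : δ ≤ 1 / m := by
      rw [hδ]
      have : t + 1 < (j + 1) / m := by rw [lt_div_iff₀ hm']; exact hj2
      have h2 : ((j : ℝ) + 1) / m = j / m + 1 / m := by ring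
      linarith
    refine ⟨δ • xvec n + u, ?_, ?_⟩
    · have hu' : ∑ i, |u i| ≤ 1 := hu
      show ∑ i, |(δ • xvec n + u) i| ≤ 1 + 1 / m
      calc ∑ i, |(δ • xvec n + u) i| ≤ ∑ i, (|δ * (1 / (n : ℝ))| + |u i|) := by
            apply Finset.sum_le_sum; intro i _
            simp only [PiLp.add_apply, PiLp.smul_apply, smul_eq_mul, xvec_apply]
            exact abs_add_le _ _
        _ = ∑ _i : Fin n, |δ * (1 / (n : ℝ))| + ∑ i, |u i| := Finset.sum_add_distrib
        _ ≤ |δ| + 1 := add_le_add (sum_abs_xvec_le n δ) hu'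
        _ ≤ 1 + 1 / m := by rw [abs_of_nonneg hδ0]; linarith
    · simp only [vadd_eq_add, hδ]
      rw [← add_assoc, ← add_smul]
      congr 2
      ring

theorem inner_eq_sum {n : ℕ} (x y : EuclideanSpace ℝ (Fin n)) :
    inner ℝ x y = ∑ i, x i * y i := by
  rw [PiLp.inner_apply]
  apply Finset.sum_congr rfl
  intro i _
  simp [mul_comm]

/-- Key lower bound: every cover of the polar of `(1+1/m) B_1^n` by translates of `a` times the
polar of `[-x,x] + B_1^n` has more than `k` members as soon as `2k < n (2 - a (1+1/m))`. -/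
theorem card_cover_gt (n m k : ℕ) (hm : 0 < m) (a : ℝ) (ha : 0 < a)
    (hn : 2 * (k : ℝ) < n * (2 - a * (1 + 1 / m)))
    (s : Finset (EuclideanSpace ℝ (Fin n)))
    (hs : polarBody (l1Ball n (1 + 1 / m)) ⊆ ⋃ w ∈ s, (w +ᵥ (a • polarBody (bodyK n)))) :
    k + 1 ≤ s.card := by
  classical
  by_contra hcon
  have hcard : s.card ≤ k := by omega
  have hm' : (0 : ℝ) < m := by exact_mod_cast hm
  set r : ℝ := 1 + 1 / m with hr
  have hr0 : 0 < r := by positivity
  have hnpos : 0 < n := by
    rcases Nat.eq_zero_or_pos n with h | h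
    · subst h
      simp only [Nat.cast_zero, zero_mul] at hn
      have : (0 : ℝ) ≤ k := Nat.cast_nonneg k
      linarith
    · exact h
  have hn' : (0 : ℝ) < n := by exact_mod_cast hnpos
  have : Nonempty (Fin n) := ⟨⟨0, hnpos⟩⟩
  have hmax : ∀ w : EuclideanSpace ℝ (Fin n), ∃ h : Fin n, ∀ i, w i ≤ w h :=
    fun w => Finite.exists_max (fun i => w i)
  choose hf hhf using hmax
  set Q : Finset (Fin n) := s.image hf with hQ
  have hQcard : Q.card ≤ k := Finset.card_image_le.trans hcard
  set σ : Fin n → ℝ := fun i => if i ∈ Q then -1 else 1 with hσ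
  set z : EuclideanSpace ℝ (Fin n) := WithLp.toLp 2 (fun i => σ i / r) with hz
  have hzi : ∀ i, z i = σ i / r := fun i => rfl
  have hσabs : ∀ i, |σ i| = 1 := by
    intro i; simp only [hσ]; split_ifs <;> simp
  have hzmem : z ∈ polarBody (l1Ball n r) := by
    intro y hy
    have hy' : ∑ i, |y i| ≤ r := hy
    rw [inner_eq_sum]
    calc ∑ i, y i * z i ≤ ∑ i, |y i| / r := by
          apply Finset.sum_le_sum; intro i _
          rw [hzi]
          calc y i * (σ i / r) ≤ |y i * (σ i / r)| := le_abs_self _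
            _ = |y i| / r := by
              rw [abs_mul, abs_div, hσabs, abs_of_pos hr0]; ring
      _ = (∑ i, |y i|) / r := by rw [Finset.sum_div]
      _ ≤ 1 := by rw [div_le_one hr0]; exact hy'
  have hcov := hs hzmem
  simp only [Set.mem_iUnion, exists_prop] at hcov
  obtain ⟨w, hws, hzw⟩ := hcov
  rw [Set.mem_vadd_set] at hzw
  obtain ⟨q, hq, hqz⟩ := hzw
  rw [Set.mem_smul_set] at hq
  obtain ⟨p, hp, rfl⟩ := hq
  set h : Fin n := hf w with hh
  have hhQ : h ∈ Q := Finset.mem_image.2 ⟨w, hws, rfl⟩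
  -- the test point `x - e_h`
  have hy0 : (1 : ℝ) • xvec n + (-(EuclideanSpace.single h (1 : ℝ))) ∈ bodyK n := by
    apply mem_bodyK (by constructor <;> norm_num)
    show ∑ i, |(-(EuclideanSpace.single h (1 : ℝ)) : EuclideanSpace ℝ (Fin n)) i| ≤ 1
    have : ∀ i, |(-(EuclideanSpace.single h (1 : ℝ)) : EuclideanSpace ℝ (Fin n)) i|
        = if i = h then 1 else 0 := by
      intro i
      simp only [PiLp.neg_apply, PiLp.single_apply, abs_neg]
      split_ifs <;> simp
    rw [Finset.sum_congr rfl (fun i _ => this i)]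
    simp
  have hp1 := hp _ hy0
  rw [inner_eq_sum] at hp1
  have hsum1 : ∑ i, ((1 : ℝ) • xvec n + (-(EuclideanSpace.single h (1 : ℝ)))) i * p i
      = (∑ i, p i) / n - p h := by
    have : ∀ i, ((1 : ℝ) • xvec n + (-(EuclideanSpace.single h (1 : ℝ)))) i * p i
        = p i / n - (if i = h then p i else 0) := by
      intro i
      simp only [PiLp.add_apply, PiLp.smul_apply, smul_eq_mul, xvec_apply, PiLp.neg_apply,
        PiLp.single_apply]
      split_ifs <;> ring
    simp only [this, Finset.sum_sub_distrib, Finset.sum_div, Finset.sum_ite_eq',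
      Finset.mem_univ, if_true]
  rw [hsum1] at hp1
  -- coordinates: `z i = w i + a * p i`
  have hcoord : ∀ i, a * p i = z i - w i := by
    intro i
    have := congrArg (fun v : EuclideanSpace ℝ (Fin n) => v i) hqz
    simp only [vadd_eq_add, PiLp.add_apply, PiLp.smul_apply, smul_eq_mul] at this
    linarith
  have hsumσ : ∑ i, σ i = (n : ℝ) - 2 * Q.card := by
    have : ∀ i, σ i = 1 - 2 * (if i ∈ Q then (1 : ℝ) else 0) := by
      intro i; simp only [hσ]; split_ifs <;> norm_num
    simp only [this, Finset.sum_sub_distrib, ← Finset.mul_sum, Finset.sum_boole]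
    simp
  have hsumw : ∑ i, w i ≤ n * w h := by
    calc ∑ i, w i ≤ ∑ _i : Fin n, w h := Finset.sum_le_sum (fun i _ => hhf w i)
      _ = n * w h := by simp
  have hsump : a * ∑ i, p i = (∑ i, σ i) / r - ∑ i, w i := by
    rw [Finset.mul_sum, Finset.sum_div, ← Finset.sum_sub_distrib]
    apply Finset.sum_congr rfl
    intro i _
    rw [hcoord, hzi]
  have hph : a * p h = -1 / r - w h := by
    rw [hcoord, hzi]
    simp only [hσ, if_pos hhQ]
  -- multiply `hp1` by `a * n`
  have h1 : a * (∑ i, p i) - n * (a * p h) ≤ a * n := by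
    have : ((∑ i, p i) / n - p h) * (a * n) ≤ 1 * (a * n) :=
      mul_le_mul_of_nonneg_right hp1 (by positivity)
    have h2 : ((∑ i, p i) / n - p h) * (a * n) = a * (∑ i, p i) - n * (a * p h) := by
      field_simp
    linarith
  rw [hsump, hph, hsumσ] at h1
  have hQk : (Q.card : ℝ) ≤ k := by exact_mod_cast hQcard
  have h3 : ((n : ℝ) - 2 * Q.card) / r + n / r ≤ a * n := by
    have : (n : ℝ) * (-1 / r - w h) = -(n / r) - n * w h := by ring
    linarith
  have h4 : (n : ℝ) - 2 * Q.card + n ≤ a * n * r := by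
    have : ((n : ℝ) - 2 * Q.card) / r + n / r = ((n : ℝ) - 2 * Q.card + n) / r := by ring
    rw [this, div_le_iff₀ hr0] at h3
    exact h3
  nlinarith

end Vale.Agent.Lib.P126
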