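import Vale.Agent.Lib.P126.Basic

open scoped Pointwise

namespace Vale.Agent.Lib.P126

variable {n : ℕ}

theorem IsSymmConvexBody.smul_mem {K : Set (EuclideanSpace ℝ (Fin n))} (hK : IsSymmConvexBody K)
    {y : EuclideanSpace ℝ (Fin n)} (hy : y ∈ K) {t : ℝ} (ht : t ∈ Set.Icc (-1 : ℝ) 1) :
    t • y ∈ K := by
  have h1 := hK.convex hy (hK.neg_mem y hy) (a := (1 + t) / 2) (b := (1 - t) / 2)
    (by linarith [ht.1]) (by linarith [ht.2]) (by ring)
  have h2 : ((1 + t) / 2) • y + ((1 - t) / 2) • (-y) = t • y := by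
    rw [smul_neg, ← sub_eq_add_neg, ← sub_smul]
    congr 1; ring
  rwa [h2] at h1

/-- If `K` is covered by the translates `x + L`, `x ∈ s`, then `⟨y,z⟩ ≤ |s|` for `y ∈ K`,
`z ∈ L°` (pigeonhole on `|s|+1` equally spaced points of the segment `[-y,y]`). -/
theorem inner_le_card_of_cover {K L : Set (EuclideanSpace ℝ (Fin n))} (hK : IsSymmConvexBody K)
    (hL : IsSymmConvexBody L) (s : Finset (EuclideanSpace ℝ (Fin n)))
    (hs : K ⊆ ⋃ x ∈ s, (x +ᵥ L)) {y z : EuclideanSpace ℝ (Fin n)} (hy : y ∈ K)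
    (hz : z ∈ polarBody L) : inner ℝ y z ≤ s.card := by
  classical
  set m := s.card with hm
  have hmpos : 0 < m := by
    have := hs hy
    simp only [Set.mem_iUnion, exists_prop] at this
    obtain ⟨x, hx, -⟩ := this
    exact Finset.card_pos.2 ⟨x, hx⟩
  have hm' : (0 : ℝ) < m := by exact_mod_cast hmpos
  by_contra hcon
  rw [not_le] at hcon
  have hβ : 0 < inner ℝ y z := lt_trans hm' hcon
  -- the points
  set t : ℕ → ℝ := fun j => -1 + 2 * (j : ℝ) / m with ht
  have htmem : ∀ j ∈ Finset.range (m + 1), t j ∈ Set.Icc (-1 : ℝ) 1 := by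
    intro j hj
    have hj' : (j : ℝ) ≤ m := by
      have := Finset.mem_range.1 hj
      exact_mod_cast Nat.lt_succ_iff.1 this
    constructor
    · simp only [ht]
      have : 0 ≤ 2 * (j : ℝ) / m := by positivity
      linarith
    · simp only [ht]
      have : 2 * (j : ℝ) / m ≤ 2 := by rw [div_le_iff₀ hm']; linarith
      linarith
  have hex : ∀ j ∈ Finset.range (m + 1), ∃ x ∈ s, t j • y ∈ x +ᵥ L := by
    intro j hj
    have := hs (hK.smul_mem hy (htmem j hj))
    simpa only [Set.mem_iUnion, exists_prop] using this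
  choose! c hc1 hc2 using hex
  obtain ⟨i, hi, j, hj, hij, hcij⟩ := Finset.exists_ne_map_eq_of_card_lt_of_maps_to
    (s := Finset.range (m + 1)) (t := s) (by simp [hm]) (f := c) (fun j hj => hc1 j hj)
  -- main estimate for `i < j`
  have key : ∀ i j : ℕ, i ∈ Finset.range (m + 1) → j ∈ Finset.range (m + 1) → i < j →
      c i = c j → False := by
    intro i j hi hj hij hcij
    obtain ⟨l, hl, hl'⟩ := Set.mem_vadd_set.1 (hc2 i hi)
    obtain ⟨l', hl2, hl2'⟩ := Set.mem_vadd_set.1 (hc2 j hj)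
    simp only [vadd_eq_add] at hl' hl2'
    have h1 : (t j - t i) • y = l' + (-l) := by
      rw [sub_smul, ← hl', ← hl2', hcij]; abel
    have h2 : inner ℝ ((t j - t i) • y) z ≤ 2 := by
      rw [h1, inner_add_left]
      have := hz l' hl2
      have := hz (-l) (hL.neg_mem l hl)
      linarith
    rw [real_inner_smul_left] at h2
    have h3 : 2 / (m : ℝ) ≤ t j - t i := by
      simp only [ht]
      have : (i : ℝ) + 1 ≤ j := by exact_mod_cast hij
      have h4 : -1 + 2 * (j : ℝ) / m - (-1 + 2 * (i : ℝ) / m) = 2 * ((j : ℝ) - i) / m := by ring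
      rw [h4]
      apply div_le_div_of_nonneg_right _ hm'.le
      linarith
    have h5 : 2 / (m : ℝ) * inner ℝ y z ≤ 2 :=
      (mul_le_mul_of_nonneg_right h3 hβ.le).trans h2
    have h6 : 2 / (m : ℝ) * inner ℝ y z = 2 * inner ℝ y z / m := by ring
    rw [h6, div_le_iff₀ hm'] at h5
    linarith
  rcases lt_or_gt_of_ne hij with h | h
  · exact key i j hi hj h hcij
  · exact key j i hj hi h hcij.symm

/-- **Dimension-free weak duality at every scale `a > 2`.** -/
theorem covNum_polar_le {K L : Set (EuclideanSpace ℝ (Fin n))} (hK : IsSymmConvexBody K)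
    (hL : IsSymmConvexBody L) {a : ℝ} (ha : 2 < a) :
    covNum (polarBody L) (a • polarBody K)
      ≤ (2 * ⌈((covNum K L : ℝ) + 1) / (a - 2)⌉₊ + 1) ^ covNum K L := by
  classical
  obtain ⟨s, hscard, hs⟩ := exists_cover_card_eq
    (exists_finite_cover hK.isCompact.isBounded hL.interior_nonempty)
  set m := covNum K L with hm
  set δ : ℝ := a - 2 with hδ
  have hδ0 : 0 < δ := by simp only [hδ]; linarith
  have ha0 : 0 < a := by linarith
  set G : ℕ := ⌈((m : ℝ) + 1) / δ⌉₊ with hG
  -- only the translates meeting `K`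
  set s' : Finset (EuclideanSpace ℝ (Fin n)) := s.filter (fun x => ((x +ᵥ L) ∩ K).Nonempty)
    with hs'
  have hs'cov : ∀ y ∈ K, ∃ x ∈ s', y ∈ x +ᵥ L := by
    intro y hy
    have := hs hy
    simp only [Set.mem_iUnion, exists_prop] at this
    obtain ⟨x, hx, hyx⟩ := this
    exact ⟨x, Finset.mem_filter.2 ⟨hx, ⟨y, hyx, hy⟩⟩, hyx⟩
  have hs'card : s'.card ≤ m := by
    rw [← hscard]; exact Finset.card_filter_le _ _
  -- bound on the functionals
  have hbound : ∀ x ∈ s', ∀ z ∈ polarBody L, |inner ℝ x z| ≤ (m : ℝ) + 1 := by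
    intro x hx z hz
    obtain ⟨-, y, hyx, hyK⟩ := Finset.mem_filter.1 hx
    obtain ⟨l, hl, hl'⟩ := Set.mem_vadd_set.1 hyx
    simp only [vadd_eq_add] at hl'
    have hx1 : x = y + (-l) := by rw [← hl']; abel
    have h1 : inner ℝ y z ≤ m := by
      rw [← hscard]; exact inner_le_card_of_cover hK hL s hs hyK hz
    have h2 : inner ℝ (-y) z ≤ m := by
      rw [← hscard]; exact inner_le_card_of_cover hK hL s hs (hK.neg_mem y hyK) hz
    have h3 := hz l hl
    have h4 := hz (-l) (hL.neg_mem l hl)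
    rw [inner_neg_left] at h2 h4
    rw [hx1, inner_add_left, inner_neg_left, abs_le]
    constructor <;> linarith
  -- the cell map
  set τ : EuclideanSpace ℝ (Fin n) → ({x // x ∈ s'} → ℤ) :=
    fun z x => ⌊inner ℝ (x : EuclideanSpace ℝ (Fin n)) z / δ⌋ with hτ
  set cells : Finset ({x // x ∈ s'} → ℤ) :=
    Fintype.piFinset (fun _ : {x // x ∈ s'} => Finset.Icc (-(G : ℤ)) G) with hcells
  have hτmem : ∀ z ∈ polarBody L, τ z ∈ cells := by
    intro z hz
    rw [hcells, Fintype.mem_piFinset]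
    intro x
    have hb := hbound x.1 x.2 z hz
    rw [abs_le] at hb
    have hGle : ((m : ℝ) + 1) / δ ≤ G := Nat.le_ceil _
    rw [Finset.mem_Icc]
    constructor
    · apply Int.le_floor.2
      push_cast
      have : -(((m : ℝ) + 1) / δ) ≤ inner ℝ (x : EuclideanSpace ℝ (Fin n)) z / δ := by
        rw [← neg_div]
        exact div_le_div_of_nonneg_right hb.1 hδ0.le
      linarith
    · have h1 : inner ℝ (x : EuclideanSpace ℝ (Fin n)) z / δ ≤ G :=
        (div_le_div_of_nonneg_right hb.2 hδ0.le).trans hGle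
      have h2 : (⌊inner ℝ (x : EuclideanSpace ℝ (Fin n)) z / δ⌋ : ℝ) ≤ (G : ℝ) :=
        (Int.floor_le _).trans h1
      exact_mod_cast h2
  set rep : ({x // x ∈ s'} → ℤ) → EuclideanSpace ℝ (Fin n) :=
    fun c => if h : ∃ z ∈ polarBody L, τ z = c then h.choose else 0 with hrep
  have hrep_spec : ∀ z ∈ polarBody L, rep (τ z) ∈ polarBody L ∧ τ (rep (τ z)) = τ z := by
    intro z hz
    have h : ∃ z' ∈ polarBody L, τ z' = τ z := ⟨z, hz, rfl⟩
    simp only [hrep, dif_pos h]
    exact h.choose_spec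
  set W : Finset (EuclideanSpace ℝ (Fin n)) := cells.image rep with hW
  have hWcard : W.card ≤ (2 * G + 1) ^ m := by
    calc W.card ≤ cells.card := Finset.card_image_le
      _ = (2 * G + 1) ^ s'.card := by
          rw [hcells, Fintype.card_piFinset]
          simp only [Int.card_Icc, Finset.prod_const, Finset.card_univ, Fintype.card_coe]
          congr 1
          omega
      _ ≤ (2 * G + 1) ^ m := Nat.pow_le_pow_right (by omega) hs'card
  refine (covNum_le_card W ?_).trans hWcard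
  intro z hz
  obtain ⟨hw, hτw⟩ := hrep_spec z hz
  set w := rep (τ z) with hwdef
  simp only [Set.mem_iUnion, exists_prop]
  refine ⟨w, Finset.mem_image.2 ⟨τ z, hτmem z hz, rfl⟩, ?_⟩
  rw [Set.mem_vadd_set]
  refine ⟨a • (a⁻¹ • (z - w)), ?_, ?_⟩
  · apply Set.smul_mem_smul_set
    intro y hy
    obtain ⟨x, hx, hyx⟩ := hs'cov y hy
    obtain ⟨l, hl, hl'⟩ := Set.mem_vadd_set.1 hyx
    simp only [vadd_eq_add] at hl'
    have hfl : ⌊inner ℝ x w / δ⌋ = ⌊inner ℝ x z / δ⌋ := congrFun hτw ⟨x, hx⟩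
    have h1 := Int.abs_sub_lt_one_of_floor_eq_floor hfl
    have h2 : inner ℝ x z - inner ℝ x w < δ := by
      have h3 := (abs_lt.1 h1).1
      have h4 : inner ℝ x w / δ - inner ℝ x z / δ = (inner ℝ x w - inner ℝ x z) / δ := by ring
      rw [h4, lt_div_iff₀ hδ0] at h3
      linarith
    have h5 := hz l hl
    have h6 := hw (-l) (hL.neg_mem l hl)
    rw [inner_neg_left] at h6
    rw [real_inner_smul_right, ← hl', inner_add_left, inner_sub_right, inner_sub_right]
    have h7 : inner ℝ x z - inner ℝ x w + (inner ℝ l z - inner ℝ l w) ≤ a := by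
      simp only [hδ] at h2; linarith
    calc a⁻¹ * (inner ℝ x z - inner ℝ x w + (inner ℝ l z - inner ℝ l w)) ≤ a⁻¹ * a := by gcongr
      _ = 1 := inv_mul_cancel₀ ha0.ne'
  · rw [smul_smul, mul_inv_cancel₀ ha0.ne', one_smul, vadd_eq_add]
    abel

end Vale.Agent.Lib.P126
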